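import Mathlib

open Finset

namespace Vale.Agent.P037h

/-- The block of an index in an unbalanced blow-up with blocks of size `m` (the last one longer). -/
def blk (n N m : ℕ) (hn : 1 ≤ n) (r : Fin N) : Fin n := ⟨min (r / m) (n - 1), by omega⟩

theorem blk_mono {n N m : ℕ} (hn : 1 ≤ n) {r r' : Fin N} (h : r ≤ r') :
    blk n N m hn r ≤ blk n N m hn r' := by
  have h' : (r : ℕ) ≤ r' := h
  have := Nat.div_le_div_right (c := m) h'
  simp only [blk, Fin.mk_le_mk]
  omega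

/-- The blow-up of a matrix. -/
def blow {n : ℕ} (N m : ℕ) (hn : 1 ≤ n) (A : Fin n → Fin n → Bool) (r c : Fin N) : Bool :=
  A (blk n N m hn r) (blk n N m hn c)

theorem off_lt {n N m : ℕ} (hn : 1 ≤ n) (hm : m = N / n) (hm0 : 1 ≤ m) (r : Fin N) :
    (r : ℕ) - m * (blk n N m hn r : ℕ) < m + n := by
  have hr := r.2
  have h1 : N < n * (m + 1) := by
    have := Nat.lt_mul_div_succ N (b := n) (by omega)
    rw [← hm] at this
    exact this
  have h2 := Nat.div_add_mod (r : ℕ) m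
  have h3 := Nat.mod_lt (r : ℕ) (show 0 < m by omega)
  simp only [blk]
  rcases Nat.le_total ((r : ℕ) / m) (n - 1) with h | h
  · rw [Nat.min_eq_left h]
    omega
  · rw [Nat.min_eq_right h]
    obtain ⟨n', rfl⟩ : ∃ n', n = n' + 1 := ⟨n - 1, by omega⟩
    simp only [Nat.add_sub_cancel]
    have : (n' + 1) * (m + 1) = m * n' + m + n' + 1 := by ring
    omega

theorem off_inj {n N m : ℕ} (hn : 1 ≤ n) (r r' : Fin N)
    (h1 : blk n N m hn r = blk n N m hn r')
    (h2 : (r : ℕ) - m * (blk n N m hn r : ℕ) = (r' : ℕ) - m * (blk n N m hn r' : ℕ)) : r = r' := by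
  have key : ∀ r : Fin N, m * (blk n N m hn r : ℕ) ≤ r := by
    intro r
    simp only [blk]
    calc m * min (↑r / m) (n - 1) ≤ m * (r / m) := Nat.mul_le_mul_left _ (Nat.min_le_left _ _)
      _ ≤ r := Nat.mul_div_le _ _
  have k1 := key r
  have k2 := key r'
  rw [h1] at h2 k1
  apply Fin.ext
  omega

theorem blow_copies {k n N m : ℕ} (hn : 1 ≤ n) (hm : m = N / n) (hm0 : 1 ≤ m)
    (H : Fin (k + 1) → Fin (k + 1) → Bool)
    (hr : ∀ i : Fin k, ∃ j, H i.castSucc j ≠ H i.succ j)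
    (hc : ∀ j : Fin k, ∃ i, H i j.castSucc ≠ H i j.succ)
    (A : Fin n → Fin n → Bool) :
    Nat.card {p : (Fin (k + 1) ↪o Fin N) × (Fin (k + 1) ↪o Fin N) //
        ∀ i j, blow N m hn A (p.1 i) (p.2 j) = H i j} ≤
      Nat.card {p : (Fin (k + 1) ↪o Fin n) × (Fin (k + 1) ↪o Fin n) //
        ∀ i j, A (p.1 i) (p.2 j) = H i j} * ((m + n) ^ (k + 1) * (m + n) ^ (k + 1)) := by
  classical
  have hf : ∀ p : (Fin (k + 1) ↪o Fin N) × (Fin (k + 1) ↪o Fin N),
      (∀ i j, blow N m hn A (p.1 i) (p.2 j) = H i j) →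
      StrictMono (fun i => blk n N m hn (p.1 i)) ∧ StrictMono (fun j => blk n N m hn (p.2 j)) := by
    intro p hp
    constructor
    · rw [Fin.strictMono_iff_lt_succ]
      intro i
      have h1 := blk_mono (n := n) (m := m) hn (p.1.monotone (Fin.castSucc_lt_succ (i := i)).le)
      rcases h1.lt_or_eq with h2 | h2
      · exact h2
      · exfalso
        obtain ⟨j, hj⟩ := hr i
        apply hj
        rw [← hp, ← hp]
        simp only [blow, h2]
    · rw [Fin.strictMono_iff_lt_succ]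
      intro i
      have h1 := blk_mono (n := n) (m := m) hn (p.2.monotone (Fin.castSucc_lt_succ (i := i)).le)
      rcases h1.lt_or_eq with h2 | h2
      · exact h2
      · exfalso
        obtain ⟨j, hj⟩ := hc i
        apply hj
        rw [← hp, ← hp]
        simp only [blow, h2]
  have hcard : Nat.card ({p : (Fin (k + 1) ↪o Fin n) × (Fin (k + 1) ↪o Fin n) //
        ∀ i j, A (p.1 i) (p.2 j) = H i j} × (Fin (k + 1) → Fin (m + n)) ×
        (Fin (k + 1) → Fin (m + n))) =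
      Nat.card {p : (Fin (k + 1) ↪o Fin n) × (Fin (k + 1) ↪o Fin n) //
        ∀ i j, A (p.1 i) (p.2 j) = H i j} * ((m + n) ^ (k + 1) * (m + n) ^ (k + 1)) := by
    simp only [Nat.card_prod, Nat.card_eq_fintype_card (α := Fin (k + 1) → Fin (m + n)),
      Fintype.card_fun, Fintype.card_fin]
  rw [← hcard]
  apply Nat.card_le_card_of_injective
    (fun p => (⟨(OrderEmbedding.ofStrictMono _ (hf p.1 p.2).1,
        OrderEmbedding.ofStrictMono _ (hf p.1 p.2).2), fun i j => p.2 i j⟩,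
      fun i => ⟨(p.1.1 i : ℕ) - m * (blk n N m hn (p.1.1 i) : ℕ), off_lt hn hm hm0 _⟩,
      fun i => ⟨(p.1.2 i : ℕ) - m * (blk n N m hn (p.1.2 i) : ℕ), off_lt hn hm hm0 _⟩))
  rintro ⟨⟨f, g⟩, hp⟩ ⟨⟨f', g'⟩, hp'⟩ hh
  simp only [Prod.mk.injEq] at hh
  obtain ⟨h12, h3, h4⟩ := hh
  have h1 := congrArg (fun z => z.1.1) h12
  have h2 := congrArg (fun z => z.1.2) h12
  simp only at h1 h2
  have e1 : f = f' := by
    ext i
    have a1 : blk n N m hn (f i) = blk n N m hn (f' i) := congrArg (fun q : Fin (k + 1) ↪o Fin n => q i) h1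
    have a2 := congrFun h3 i
    rw [Fin.mk.injEq] at a2
    rw [off_inj hn _ _ a1 a2]
  have e2 : g = g' := by
    ext i
    have a1 : blk n N m hn (g i) = blk n N m hn (g' i) := congrArg (fun q : Fin (k + 1) ↪o Fin n => q i) h2
    have a2 := congrFun h4 i
    rw [Fin.mk.injEq] at a2
    rw [off_inj hn _ _ a1 a2]
  subst e1
  subst e2
  rfl

theorem blow_dist {k n N m d : ℕ} (hn : 1 ≤ n) (hm : m = N / n) (hm0 : 1 ≤ m)
    (H : Fin k → Fin k → Bool) (A : Fin n → Fin n → Bool)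
    (hA : ∀ B : Fin n → Fin n → Bool,
      (¬ ∃ p : (Fin k ↪o Fin n) × (Fin k ↪o Fin n), ∀ i j, B (p.1 i) (p.2 j) = H i j) →
      d ≤ Nat.card {q : Fin n × Fin n // A q.1 q.2 ≠ B q.1 q.2})
    (B : Fin N → Fin N → Bool)
    (hB : ¬ ∃ p : (Fin k ↪o Fin N) × (Fin k ↪o Fin N), ∀ i j, B (p.1 i) (p.2 j) = H i j) :
    m * m * d ≤ Nat.card {q : Fin N × Fin N // blow N m hn A q.1 q.2 ≠ B q.1 q.2} := by
  classical
  have hmn : m * n ≤ N := by rw [hm]; exact Nat.div_mul_le_self N n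
  have hlt : ∀ (x : Fin n) (a : Fin m), m * (x : ℕ) + a < N := by
    intro x a
    have h1 := x.2
    have h2 := a.2
    have h3 : m * ((x : ℕ) + 1) ≤ m * n := Nat.mul_le_mul_left _ h1
    have h4 : m * ((x : ℕ) + 1) = m * x + m := by ring
    omega
  let sh : Fin m → Fin n → Fin N := fun a x => ⟨m * (x : ℕ) + a, hlt x a⟩
  have sh_mono : ∀ a, StrictMono (sh a) := by
    intro a x y hxy
    have h1 : (x : ℕ) < y := hxy
    have h2 : m * (x : ℕ) < m * y := Nat.mul_lt_mul_of_pos_left h1 (by omega)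
    simp only [sh, Fin.mk_lt_mk]
    omega
  have blk_sh : ∀ a x, blk n N m hn (sh a x) = x := by
    intro a x
    have h1 := x.2
    have h2 := a.2
    apply Fin.ext
    simp only [blk, sh]
    have h3 : (m * (x : ℕ) + a) / m = x := by
      rw [Nat.mul_add_div (by omega), Nat.div_eq_of_lt h2, Nat.add_zero]
    rw [h3]
    omega
  have hfree : ∀ a a' : Fin m, d ≤ Nat.card {q : Fin n × Fin n //
      A q.1 q.2 ≠ B (sh a q.1) (sh a' q.2)} := by
    intro a a'
    refine hA (fun x y => B (sh a x) (sh a' y)) ?_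
    rintro ⟨p, hp⟩
    exact hB ⟨(p.1.trans (OrderEmbedding.ofStrictMono _ (sh_mono a)),
      p.2.trans (OrderEmbedding.ofStrictMono _ (sh_mono a'))), hp⟩
  have hsum : Nat.card (Σ aa : Fin m × Fin m, {q : Fin n × Fin n //
      A q.1 q.2 ≠ B (sh aa.1 q.1) (sh aa.2 q.2)}) ≤
      Nat.card {q : Fin N × Fin N // blow N m hn A q.1 q.2 ≠ B q.1 q.2} := by
    apply Nat.card_le_card_of_injective (fun z => ⟨(sh z.1.1 z.2.1.1, sh z.1.2 z.2.1.2), by
      have := z.2.2
      simp only [blow, blk_sh]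
      exact this⟩)
    rintro ⟨⟨a, a'⟩, ⟨⟨x, y⟩, hz⟩⟩ ⟨⟨b, b'⟩, ⟨⟨x', y'⟩, hz'⟩⟩ hh
    simp only [Subtype.mk.injEq, Prod.mk.injEq] at hh
    have key : ∀ (a b : Fin m) (x x' : Fin n), sh a x = sh b x' → a = b ∧ x = x' := by
      intro a b x x' h
      have hx : x = x' := by rw [← blk_sh a x, ← blk_sh b x', h]
      subst hx
      refine ⟨?_, rfl⟩
      have := congrArg Fin.val h
      simp only [sh] at this
      apply Fin.ext
      omega
    obtain ⟨r1, r2⟩ := key _ _ _ _ hh.1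
    obtain ⟨r3, r4⟩ := key _ _ _ _ hh.2
    subst r1 r2 r3 r4
    rfl
  refine le_trans ?_ hsum
  rw [Nat.card_sigma]
  calc m * m * d = ∑ _aa : Fin m × Fin m, d := by simp
    _ ≤ _ := sum_le_sum (fun aa _ => hfree aa.1 aa.2)

end Vale.Agent.P037h
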