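import Vale.Agent.P037h.Far

open Finset

namespace Vale.Agent.P037h

/-- A triple of selections. -/
def tri (a b c : ℕ → Key) (k i0 : ℕ) : Key := if k = 0 then a i0 else if k = 1 then b i0 else c i0

@[simp] theorem tri0 (a b c : ℕ → Key) (i0 : ℕ) : tri a b c 0 i0 = a i0 := rfl
@[simp] theorem tri1 (a b c : ℕ → Key) (i0 : ℕ) : tri a b c 1 i0 = b i0 := rfl
@[simp] theorem tri2 (a b c : ℕ → Key) (i0 : ℕ) : tri a b c 2 i0 = c i0 := rfl

theorem all3 {P : ℕ → Prop} (h0 : P 0) (h1 : P 1) (h2 : P 2) : ∀ a, a < 3 → P a := by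
  intro a ha
  rcases (by omega : a = 0 ∨ a = 1 ∨ a = 2) with rfl | rfl | rfl
  · exact h0
  · exact h1
  · exact h2

theorem all33 {P : ℕ → ℕ → Prop} (h00 : P 0 0) (h01 : P 0 1) (h02 : P 0 2)
    (h10 : P 1 0) (h11 : P 1 1) (h12 : P 1 2) (h20 : P 2 0) (h21 : P 2 1) (h22 : P 2 2) :
    ∀ a b, a < 3 → b < 3 → P a b := by
  intro a b ha hb
  rcases (by omega : a = 0 ∨ a = 1 ∨ a = 2) with rfl | rfl | rfl <;>
  rcases (by omega : b = 0 ∨ b = 1 ∨ b = 2) with rfl | rfl | rfl <;> assumption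

theorem inj_mk (a b : ℕ) : Function.Injective (fun i0 => mk a b i0) := by
  intro x y hxy
  simpa using congrArg ix hxy

/-- All rows and columns of the cell `w` are good. -/
def GoodCell (D : ℕ) (B : Key → Key → Prop) (w : ℕ) : Prop :=
  ∀ t, t < 2 * D + 2 → 1024 * eR D B (mk 4 w t) < 2 ^ D ∧ 1024 * eC D B (mk 4 w t) < 2 ^ D

section
variable {D : ℕ} {B : Key → Key → Prop} (hE : 1024 * (Er D B).card < 2 ^ D * 2 ^ D)
  (hno : ¬ HasCopy D B) {w : ℕ} (hw : w < 2 ^ D) (hg : GoodCell D B w)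
include hE hno hw hg

theorem chain_P0 (hD : 1 ≤ D) (t u : ℕ) (ht : t < 2 * D + 2) (hu : u < 2 * D + 2)
    (lt : lev D t = 0) (lu : lev D u = 0) : B (mk 4 w t) (mk 4 w u) := by
  by_contra hB
  apply hno
  have hw0 : w / 2 ^ D = 0 := Nat.div_eq_of_lt hw
  refine extract3 hE (κ := 2) (by omega)
    (tri (fun i => mk 3 0 i) (fun _ => mk 4 w t) (fun i => mk 6 0 i))
    (tri (fun i => mk 3 0 i) (fun _ => mk 4 w u) (fun i => mk 6 0 i))
    ?_ ?_ ?_ ?_ ?_ ?_ ?_ ?_ ?_ ?_ ?_ ?_ ?_
  · intro a i0 ha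
    revert a
    apply all3 <;> intro h0 <;> simp [Valid] <;> omega
  · intro a i0 ha
    revert a
    apply all3 <;> intro h0 <;> simp [Valid] <;> omega
  · apply all3
    · exact Or.inl (inj_mk 3 0)
    · exact Or.inr ⟨_, (hg t ht).1, fun _ => rfl⟩
    · exact Or.inl (inj_mk 6 0)
  · apply all3
    · exact Or.inl (inj_mk 3 0)
    · exact Or.inr ⟨_, (hg u hu).2, fun _ => rfl⟩
    · exact Or.inl (inj_mk 6 0)
  · intro i0; simp
  · intro i0; simp
  · intro i0; simp [key_lt]
  · intro i0; simp [key_lt]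
  · intro i0; simp [key_lt]
  · intro i0; simp [key_lt]
  · intro a i0 ha
    revert a
    apply all3 <;> simp [accR, lt, hw0]
  · intro a i0 ha
    revert a
    apply all3 <;> simp [accC, lu]
  · apply all33
    · right; exact ⟨fun i0 i1 => by simp; exact ent_mm (by simp) (by simp) (by simp) (by simp), Or.inl (inj_mk 3 0)⟩
    · right; exact ⟨fun i0 i1 => by simp; exact ent_mm (by simp) (by simp) (by simp) (by simp), Or.inl (inj_mk 3 0)⟩
    · right; exact ⟨fun i0 i1 => by simp; exact ent_mm (by simp) (by simp) (by simp) (by simp), Or.inl (inj_mk 3 0)⟩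
    · right; exact ⟨fun i0 i1 => by simp; exact ent_mm (by simp) (by simp) (by simp) (by simp), Or.inr (inj_mk 3 0)⟩
    · left; intro i0 i1; simp; exact hB
    · right; exact ⟨fun i0 i1 => by simp; exact ent_mm (by simp) (by simp) (by simp) (by simp), Or.inr (inj_mk 6 0)⟩
    · right; exact ⟨fun i0 i1 => by simp; exact ent_mm (by simp) (by simp) (by simp) (by simp), Or.inl (inj_mk 6 0)⟩
    · right; exact ⟨fun i0 i1 => by simp; exact ent_mm (by simp) (by simp) (by simp) (by simp), Or.inl (inj_mk 6 0)⟩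
    · right; exact ⟨fun i0 i1 => by simp; exact ent_mm (by simp) (by simp) (by simp) (by simp), Or.inl (inj_mk 6 0)⟩

theorem chain_T (j : ℕ) (hj : j + 1 ≤ D)
    (hP : ∀ t u, t < 2 * D + 2 → u < 2 * D + 2 → lev D t = j → lev D u = j →
      B (mk 4 w t) (mk 4 w u))
    (t u : ℕ) (ht : t < 2 * D + 2) (hu : u < 2 * D + 2)
    (lt : lev D t = j + 1) (lu : lev D u = j) : B (mk 4 w t) (mk 4 w u) := by
  by_contra hB
  apply hno
  obtain ⟨d, hd⟩ : ∃ d, d = (w / 2 ^ (D - (j + 1))) % 2 := ⟨_, rfl⟩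
  have hd2 : d < 2 := by omega
  obtain ⟨κ, hκ⟩ : ∃ κ, κ = 4 * (j + 1) + d := ⟨_, rfl⟩
  have κ1 : κ ≠ 4 * D + 4 := by omega
  have κ2 : κ % 4 < 2 := by omega
  have κ3 : κ / 4 = j + 1 := by omega
  have κ4 : κ % 2 = d := by omega
  have l1 : lev D j = j := by unfold lev; rw [if_pos (by omega)]
  have l2 : lev D (2 * D + 1 - j) = j := by unfold lev; rw [if_neg (by omega)]; omega
  have o1 : j < t := by unfold lev at lt; split_ifs at lt <;> omega
  have o2 : t < 2 * D + 1 - j := by unfold lev at lt; split_ifs at lt <;> omega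
  refine extract3 hE (κ := κ) (by omega)
    (tri (fun _ => mk 4 w j) (fun _ => mk 4 w t) (fun _ => mk 4 w (2 * D + 1 - j)))
    (tri (fun i => mk 3 0 i) (fun _ => mk 4 w u) (fun i => mk 6 0 i))
    ?_ ?_ ?_ ?_ ?_ ?_ ?_ ?_ ?_ ?_ ?_ ?_ ?_
  · intro a i0 ha
    revert a
    apply all3 <;> intro h0 <;> simp [Valid] <;> omega
  · intro a i0 ha
    revert a
    apply all3 <;> intro h0 <;> simp [Valid] <;> omega
  · apply all3
    · exact Or.inr ⟨_, (hg j (by omega)).1, fun _ => rfl⟩
    · exact Or.inr ⟨_, (hg t ht).1, fun _ => rfl⟩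
    · exact Or.inr ⟨_, (hg (2 * D + 1 - j) (by omega)).1, fun _ => rfl⟩
  · apply all3
    · exact Or.inl (inj_mk 3 0)
    · exact Or.inr ⟨_, (hg u hu).2, fun _ => rfl⟩
    · exact Or.inl (inj_mk 6 0)
  · intro i0; simp
  · intro i0; simp
  · intro i0; simp [key_lt]; omega
  · intro i0; simp [key_lt]; omega
  · intro i0; simp [key_lt]
  · intro i0; simp [key_lt]
  · intro a i0 ha
    revert a
    apply all3 <;> simp [accR, lt, κ1, κ2, κ3, κ4, l1, l2, hd]
  · intro a i0 ha
    revert a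
    apply all3 <;> simp [accC, lu, κ1, κ2, κ3, κ4, hd]
  · apply all33
    · right; exact ⟨fun i0 i1 => by simp; exact ent_mm (by simp) (by simp) (by simp) (by simp), Or.inr (inj_mk 3 0)⟩
    · left; intro i0 i1; simp; exact hP _ _ (by omega) hu l1 lu
    · right; exact ⟨fun i0 i1 => by simp; exact ent_mm (by simp) (by simp) (by simp) (by simp), Or.inr (inj_mk 6 0)⟩
    · right; exact ⟨fun i0 i1 => by simp; exact ent_mm (by simp) (by simp) (by simp) (by simp), Or.inr (inj_mk 3 0)⟩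
    · left; intro i0 i1; simp; exact hB
    · right; exact ⟨fun i0 i1 => by simp; exact ent_mm (by simp) (by simp) (by simp) (by simp), Or.inr (inj_mk 6 0)⟩
    · right; exact ⟨fun i0 i1 => by simp; exact ent_mm (by simp) (by simp) (by simp) (by simp), Or.inr (inj_mk 3 0)⟩
    · left; intro i0 i1; simp; exact hP _ _ (by omega) hu l2 lu
    · right; exact ⟨fun i0 i1 => by simp; exact ent_mm (by simp) (by simp) (by simp) (by simp), Or.inr (inj_mk 6 0)⟩

theorem chain_P (j : ℕ) (hj : j + 1 ≤ D)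
    (hT : ∀ t u, t < 2 * D + 2 → u < 2 * D + 2 → lev D t = j + 1 → lev D u = j →
      B (mk 4 w t) (mk 4 w u))
    (t u : ℕ) (ht : t < 2 * D + 2) (hu : u < 2 * D + 2)
    (lt : lev D t = j + 1) (lu : lev D u = j + 1) : B (mk 4 w t) (mk 4 w u) := by
  by_contra hB
  apply hno
  obtain ⟨d, hd⟩ : ∃ d, d = (w / 2 ^ (D - (j + 1))) % 2 := ⟨_, rfl⟩
  have hd2 : d < 2 := by omega
  obtain ⟨κ, hκ⟩ : ∃ κ, κ = 4 * (j + 1) + 2 + d := ⟨_, rfl⟩
  have κ1 : κ ≠ 4 * D + 4 := by omega
  have κ2 : ¬ κ % 4 < 2 := by omega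
  have κ3 : κ / 4 = j + 1 := by omega
  have κ4 : κ % 2 = d := by omega
  have l1 : lev D j = j := by unfold lev; rw [if_pos (by omega)]
  have l2 : lev D (2 * D + 1 - j) = j := by unfold lev; rw [if_neg (by omega)]; omega
  have o1 : j < u := by unfold lev at lu; split_ifs at lu <;> omega
  have o2 : u < 2 * D + 1 - j := by unfold lev at lu; split_ifs at lu <;> omega
  refine extract3 hE (κ := κ) (by omega)
    (tri (fun i => mk 3 0 i) (fun _ => mk 4 w t) (fun i => mk 6 0 i))
    (tri (fun _ => mk 4 w j) (fun _ => mk 4 w u) (fun _ => mk 4 w (2 * D + 1 - j)))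
    ?_ ?_ ?_ ?_ ?_ ?_ ?_ ?_ ?_ ?_ ?_ ?_ ?_
  · intro a i0 ha
    revert a
    apply all3 <;> intro h0 <;> simp [Valid] <;> omega
  · intro a i0 ha
    revert a
    apply all3 <;> intro h0 <;> simp [Valid] <;> omega
  · apply all3
    · exact Or.inl (inj_mk 3 0)
    · exact Or.inr ⟨_, (hg t ht).1, fun _ => rfl⟩
    · exact Or.inl (inj_mk 6 0)
  · apply all3
    · exact Or.inr ⟨_, (hg j (by omega)).2, fun _ => rfl⟩
    · exact Or.inr ⟨_, (hg u hu).2, fun _ => rfl⟩
    · exact Or.inr ⟨_, (hg (2 * D + 1 - j) (by omega)).2, fun _ => rfl⟩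
  · intro i0; simp
  · intro i0; simp
  · intro i0; simp [key_lt]
  · intro i0; simp [key_lt]
  · intro i0; simp [key_lt]; omega
  · intro i0; simp [key_lt]; omega
  · intro a i0 ha
    revert a
    apply all3 <;> simp [accR, lt, κ1, κ2, κ3, κ4, hd]
  · intro a i0 ha
    revert a
    apply all3 <;> simp [accC, lu, κ1, κ2, κ3, κ4, l1, l2, hd]
  · apply all33
    · right; exact ⟨fun i0 i1 => by simp; exact ent_mm (by simp) (by simp) (by simp) (by simp), Or.inl (inj_mk 3 0)⟩
    · right; exact ⟨fun i0 i1 => by simp; exact ent_mm (by simp) (by simp) (by simp) (by simp), Or.inl (inj_mk 3 0)⟩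
    · right; exact ⟨fun i0 i1 => by simp; exact ent_mm (by simp) (by simp) (by simp) (by simp), Or.inl (inj_mk 3 0)⟩
    · left; intro i0 i1; simp; exact hT _ _ ht (by omega) lt l1
    · left; intro i0 i1; simp; exact hB
    · left; intro i0 i1; simp; exact hT _ _ ht (by omega) lt l2
    · right; exact ⟨fun i0 i1 => by simp; exact ent_mm (by simp) (by simp) (by simp) (by simp), Or.inl (inj_mk 6 0)⟩
    · right; exact ⟨fun i0 i1 => by simp; exact ent_mm (by simp) (by simp) (by simp) (by simp), Or.inl (inj_mk 6 0)⟩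
    · right; exact ⟨fun i0 i1 => by simp; exact ent_mm (by simp) (by simp) (by simp) (by simp), Or.inl (inj_mk 6 0)⟩

theorem chain_F (t u : ℕ) (ht : t < 2 * D + 2) (hu : u < 2 * D + 2)
    (lt : lev D t = D) (lu : lev D u = D) : ¬ B (mk 4 w t) (mk 4 w u) := by
  intro hB
  apply hno
  refine extract3 hE (κ := 4 * D + 4) (by omega)
    (tri (fun _ => mk 4 w t) (fun i => mk 5 0 i) (fun i => mk 6 0 i))
    (tri (fun _ => mk 4 w u) (fun i => mk 5 0 i) (fun i => mk 6 0 i))
    ?_ ?_ ?_ ?_ ?_ ?_ ?_ ?_ ?_ ?_ ?_ ?_ ?_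
  · intro a i0 ha
    revert a
    apply all3 <;> intro h0 <;> simp [Valid] <;> omega
  · intro a i0 ha
    revert a
    apply all3 <;> intro h0 <;> simp [Valid] <;> omega
  · apply all3
    · exact Or.inr ⟨_, (hg t ht).1, fun _ => rfl⟩
    · exact Or.inl (inj_mk 5 0)
    · exact Or.inl (inj_mk 6 0)
  · apply all3
    · exact Or.inr ⟨_, (hg u hu).2, fun _ => rfl⟩
    · exact Or.inl (inj_mk 5 0)
    · exact Or.inl (inj_mk 6 0)
  · intro i0; simp
  · intro i0; simp
  · intro i0; simp [key_lt]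
  · intro i0; simp [key_lt]
  · intro i0; simp [key_lt]
  · intro i0; simp [key_lt]
  · intro a i0 ha
    revert a
    apply all3 <;> simp [accR, lt]
  · intro a i0 ha
    revert a
    apply all3 <;> simp [accC, lu]
  · apply all33
    · left; intro i0 i1; simp; exact hB
    · right; exact ⟨fun i0 i1 => by simp; exact ent_mm (by simp) (by simp) (by simp) (by simp), Or.inr (inj_mk 5 0)⟩
    · right; exact ⟨fun i0 i1 => by simp; exact ent_mm (by simp) (by simp) (by simp) (by simp), Or.inr (inj_mk 6 0)⟩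
    · right; exact ⟨fun i0 i1 => by simp; exact (ent_5m (by simp) (by simp)).2 (by simp), Or.inl (inj_mk 5 0)⟩
    · right; exact ⟨fun i0 i1 => by simp; rw [ent_5m (by simp) (by simp)]; simp, Or.inl (inj_mk 5 0)⟩
    · right; exact ⟨fun i0 i1 => by simp; exact (ent_5m (by simp) (by simp)).2 (by simp), Or.inl (inj_mk 5 0)⟩
    · right; exact ⟨fun i0 i1 => by simp; exact ent_mm (by simp) (by simp) (by simp) (by simp), Or.inl (inj_mk 6 0)⟩
    · right; exact ⟨fun i0 i1 => by simp; exact ent_mm (by simp) (by simp) (by simp) (by simp), Or.inl (inj_mk 6 0)⟩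
    · right; exact ⟨fun i0 i1 => by simp; exact ent_mm (by simp) (by simp) (by simp) (by simp), Or.inl (inj_mk 6 0)⟩

theorem chain (hD : 1 ≤ D) : False := by
  have key : ∀ j, j ≤ D → ∀ t u, t < 2 * D + 2 → u < 2 * D + 2 → lev D t = j → lev D u = j →
      B (mk 4 w t) (mk 4 w u) := by
    intro j
    induction j with
    | zero => intro _; exact chain_P0 hE hno hw hg hD
    | succ n ih =>
      intro hn
      exact chain_P hE hno hw hg n hn (chain_T hE hno hw hg n hn (ih (by omega)))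
  have lD : lev D D = D := by unfold lev; rw [if_pos le_rfl]
  exact chain_F hE hno hw hg D D (by omega) (by omega) lD lD
    (key D le_rfl D D (by omega) (by omega) lD lD)

end

open Classical in
/-- Summing the errors over the rows gives the total. -/
theorem sum_eR (D : ℕ) (B : Key → Key → Prop) : ∑ x ∈ S D, eR D B x = (Er D B).card := by
  unfold eR
  rw [← card_eq_sum_card_fiberwise (f := fun p : Key × Key => p.1)]
  rintro ⟨x, y⟩ hp
  have := (mem_Er.1 hp).1.1
  exact mem_S.2 this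

open Classical in
theorem sum_eC (D : ℕ) (B : Key → Key → Prop) : ∑ x ∈ S D, eC D B x = (Er D B).card := by
  unfold eC
  rw [← card_eq_sum_card_fiberwise (f := fun p : Key × Key => p.2)]
  rintro ⟨x, y⟩ hp
  have := (mem_Er.1 hp).1.2
  exact mem_S.2 this

open Classical in
theorem few_bad {D : ℕ} (e : Key → ℕ) (E : ℕ) (hs : ∑ x ∈ S D, e x = E)
    (hE : 2048 * E < 2 ^ D * 2 ^ D) :
    2 * ((S D).filter (fun x => 2 ^ D ≤ 1024 * e x)).card < 2 ^ D := by
  have h1 : ((S D).filter (fun x => 2 ^ D ≤ 1024 * e x)).card * 2 ^ D ≤ 1024 * E := by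
    rw [← hs, Finset.mul_sum]
    calc ((S D).filter (fun x => 2 ^ D ≤ 1024 * e x)).card * 2 ^ D
        = ∑ x ∈ (S D).filter (fun x => 2 ^ D ≤ 1024 * e x), 2 ^ D := by
          rw [sum_const, smul_eq_mul]
      _ ≤ ∑ x ∈ (S D).filter (fun x => 2 ^ D ≤ 1024 * e x), 1024 * e x := by
          apply sum_le_sum
          intro x hx
          exact (mem_filter.1 hx).2
      _ ≤ ∑ x ∈ S D, 1024 * e x := by
          apply sum_le_sum_of_subset_of_nonneg (filter_subset _ _)
          intro x _ _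
          exact Nat.zero_le _
  have spos : 0 < 2 ^ D := by positivity
  nlinarith

open Classical in
/-- With few errors there is a copy of the pattern. -/
theorem far {D : ℕ} (hD : 1 ≤ D) {B : Key → Key → Prop}
    (hE : 2048 * (Er D B).card < 2 ^ D * 2 ^ D) : HasCopy D B := by
  by_contra hno
  have b1 := few_bad (eR D B) _ (sum_eR D B) hE
  have b2 := few_bad (eC D B) _ (sum_eC D B) hE
  obtain ⟨w, hw, hw2⟩ : ∃ w ∈ range (2 ^ D),
      w ∉ ((S D).filter (fun x => 2 ^ D ≤ 1024 * eR D B x)).image sb ∪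
        ((S D).filter (fun x => 2 ^ D ≤ 1024 * eC D B x)).image sb := by
    by_contra hcon
    push Not at hcon
    have h1 := card_le_card (s := range (2 ^ D)) (fun w hw => hcon w hw)
    rw [card_range] at h1
    have h2 := card_union_le (((S D).filter (fun x => 2 ^ D ≤ 1024 * eR D B x)).image sb)
      (((S D).filter (fun x => 2 ^ D ≤ 1024 * eC D B x)).image sb)
    have h3 := card_image_le (s := (S D).filter (fun x => 2 ^ D ≤ 1024 * eR D B x)) (f := sb)
    have h4 := card_image_le (s := (S D).filter (fun x => 2 ^ D ≤ 1024 * eC D B x)) (f := sb)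
    omega
  rw [mem_range] at hw
  rw [mem_union, not_or] at hw2
  refine chain (D := D) (B := B) (w := w) (by omega) hno hw ?_ hD
  intro t ht
  have v : Valid D (mk 4 w t) := by
    unfold Valid
    simp
    omega
  constructor
  · by_contra hc
    apply hw2.1
    rw [mem_image]
    exact ⟨mk 4 w t, mem_filter.2 ⟨mem_S.2 v, by omega⟩, rfl⟩
  · by_contra hc
    apply hw2.2
    rw [mem_image]
    exact ⟨mk 4 w t, mem_filter.2 ⟨mem_S.2 v, by omega⟩, rfl⟩

end Vale.Agent.P037h
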