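import Vale.Agent.P037h.NoCo

open Finset

namespace Vale.Agent.P037h

theorem div_between {a b c m y : ℕ} (h1 : a ≤ b) (h2 : b ≤ c) (h3 : a / m = y) (h4 : c / m = y) :
    b / m = y := by
  have q1 := Nat.div_le_div_right (c := m) h1
  have q2 := Nat.div_le_div_right (c := m) h2
  omega

theorem core_cell {D κ : ℕ} (hD : 1 ≤ D) (hκ : κ < 4 * D + 5) {r1 r2 r3 c1 c2 c3 : Key}
    (or1 : r1 < r2) (or2 : r2 < r3) (oc1 : c1 < c2) (oc2 : c2 < c3)
    (vr2 : Valid D r2) (vc2 : Valid D c2)
    (a1 : accR D 1 κ (kd r1) (sb r1) (ix r1)) (a3 : accR D 1 κ (kd r3) (sb r3) (ix r3))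
    (b2 : accR D 2 κ (kd r2) (sb r2) (ix r2))
    (a1' : accC D 1 κ (kd c1) (sb c1) (ix c1)) (a3' : accC D 1 κ (kd c3) (sb c3) (ix c3))
    (b2' : accC D 2 κ (kd c2) (sb c2) (ix c2))
    (e11 : ent D r1 c1) (e12 : ent D r1 c2) (e32 : ent D r3 c2) (e21 : ent D r2 c1)
    (e23 : ent D r2 c3) (e22 : ¬ ent D r2 c2) :
    kd c1 = 4 ∧ kd c3 = 4 ∧ sb c1 = sb c3 := by
  rw [key_lt] at or1 or2 oc1 oc2
  unfold accR at a1 a3 b2
  unfold accC at a1' a3' b2'
  by_cases hF : κ = 4 * D + 4
  · -- the last rule
    exfalso
    simp only [hF, if_true, if_false, OfNat.ofNat_ne_one] at a1 a3 b2 a1' a3' b2'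
    have k1 : kd r1 = 4 := by omega
    have k2 : kd c1 = 4 := by omega
    rw [ent_44 k1 k2] at e11
    unfold tree at e11
    omega
  · by_cases hV : κ % 4 < 2
    · exfalso
      simp only [hF, hV, if_true, if_false, OfNat.ofNat_ne_one] at a1 a3 b2 a1' a3' b2'
      rw [ent_44 a1.1 b2'.1] at e12
      rw [ent_44 a3.1 b2'.1] at e32
      rw [ent_44 b2.1 b2'.1] at e22
      unfold tree at e12 e32 e22
      apply e22
      refine ⟨e12.1, by omega, ?_⟩
      have x1 : D - lev D (ix r1) = (D - κ / 4) + 1 := by omega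
      have x3 : D - lev D (ix r3) = (D - κ / 4) + 1 := by omega
      have x2 : D - lev D (ix r2) = D - κ / 4 := by omega
      have y1 := e12.2.2
      have y3 := e32.2.2
      rw [x1] at y1
      rw [x3] at y3
      rw [x2]
      have y2 := div_between (a := sb r1) (b := sb r2) (c := sb r3) (by omega) (by omega) y1 y3
      rw [pow_succ, ← Nat.div_div_eq_div_mul, ← Nat.div_div_eq_div_mul] at y2
      have z1 := b2.2.2
      have z2 := b2'.2.2
      omega
    · simp only [hF, hV, if_true, if_false, OfNat.ofNat_ne_one] at a1 a3 b2 b2' a1' a3'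
      rw [ent_44 b2.1 b2'.1] at e22
      unfold tree at e22
      by_cases h0 : κ / 4 = 0
      · exfalso
        apply e22
        refine ⟨by omega, by omega, ?_⟩
        have l0 : lev D (ix r2) = 0 := by omega
        rw [l0]
        unfold Valid at vr2 vc2
        rw [Nat.div_eq_of_lt, Nat.div_eq_of_lt] <;> simp <;> omega
      · simp only [h0, if_false] at a1' a3'
        rw [ent_44 b2.1 a1'.1] at e21
        rw [ent_44 b2.1 a3'.1] at e23
        unfold tree at e21 e23
        have y2 := div_between (a := sb c1) (b := sb c2) (c := sb c3) (by omega) (by omega)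
          e21.2.2.symm e23.2.2.symm
        have hk : κ / 4 = D := by
          by_contra hne
          exact e22 ⟨by omega, by omega, y2.symm⟩
        have x : D - lev D (ix r2) = 0 := by omega
        have z1 := e21.2.2
        have z2 := e23.2.2
        rw [x] at z1 z2
        simp only [pow_zero, Nat.div_one] at z1 z2
        exact ⟨a1'.1, a3'.1, by omega⟩

theorem copy_cell {D : ℕ} (hD : 1 ≤ D) (f g : ℕ → Key)
    (hf : ∀ i j, i < j → j < 32 → f i < f j) (hg : ∀ i j, i < j → j < 32 → g i < g j)
    (vf : ∀ i, i < 32 → Valid D (f i)) (vg : ∀ i, i < 32 → Valid D (g i))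
    (h : ∀ i j, i < 32 → j < 32 → (ent D (f i) (g j) ↔ HP i j)) :
    kd (g 29) = 4 ∧ kd (g 31) = 4 ∧ sb (g 29) = sb (g 31) := by
  have mf : ∀ i j, i ≤ j → j < 32 → kd (f i) ≤ kd (f j) := by
    intro i j hij hj
    rcases Nat.lt_or_ge i j with h1 | h1
    · have := (key_lt _ _).1 (hf i j h1 hj); omega
    · have : i = j := by omega
      subst this; exact le_rfl
  have mg : ∀ i j, i ≤ j → j < 32 → kd (g i) ≤ kd (g j) := by
    intro i j hij hj
    rcases Nat.lt_or_ge i j with h1 | h1
    · have := (key_lt _ _).1 (hg i j h1 hj); omega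
    · have : i = j := by omega
      subst this; exact le_rfl
  have HPs : ∀ i j, i < 27 → j < 27 → (HP i j ↔ Pi0 i j) := by
    intro i j hi hj
    simp [HP, hi, hj]
  -- columns are in the anchor
  have fromRow : kd (f 1) = 0 → ∀ j, j < 27 → kd (g j) = 0 := by
    intro h1 j hj
    have h0 : kd (f 0) = 0 := by have := mf 0 1 (by omega) (by omega); omega
    by_contra hk
    have e0 := h 0 j (by omega) (by omega)
    have e1 := h 1 j (by omega) (by omega)
    rw [HPs _ _ (by omega) hj] at e0 e1
    rcases (by omega : kd (g j) ≤ 2 ∨ 3 ≤ kd (g j)) with hk2 | hk2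
    · have a0 := ent_0s (D := D) h0 (by omega) hk2
      have a1 := ent_0s (D := D) h1 (by omega) hk2
      rw [e0] at a0
      rw [e1] at a1
      unfold Pi0 at a0 a1
      omega
    · have a0 := ent_0m (D := D) h0 hk2
      have a1 := ent_0m (D := D) h1 hk2
      rw [e0] at a0
      rw [e1] at a1
      unfold Pi0 at a0 a1
      omega
  have fromCol : kd (g 1) = 0 → ∀ i, i < 27 → kd (f i) = 0 := by
    intro h1 i hi
    have h0 : kd (g 0) = 0 := by have := mg 0 1 (by omega) (by omega); omega
    by_contra hk
    have e0 := h i 0 (by omega) (by omega)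
    have e1 := h i 1 (by omega) (by omega)
    rw [HPs _ _ hi (by omega)] at e0 e1
    rcases (by omega : kd (f i) ≤ 2 ∨ 3 ≤ kd (f i)) with hk2 | hk2
    · have a0 := ent_s0 (D := D) h0 (by omega) hk2
      have a1 := ent_s0 (D := D) h1 (by omega) hk2
      rw [e0] at a0
      rw [e1] at a1
      unfold Pi0 at a0 a1
      omega
    · have a0 := ent_m0 (D := D) h0 hk2
      have a1 := ent_m0 (D := D) h1 hk2
      rw [e0] at a0
      rw [e1] at a1
      unfold Pi0 at a0 a1
      omega
  have kfg : (∀ i, i < 27 → kd (f i) = 0) ∧ (∀ j, j < 27 → kd (g j) = 0) := by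
    by_cases h1 : kd (f 1) = 0
    · have := fromRow h1
      exact ⟨fromCol (this 1 (by omega)), this⟩
    · by_cases h2 : kd (g 1) = 0
      · have := fromCol h2
        exact ⟨this, fromRow (this 1 (by omega))⟩
      · exfalso
        refine noCo (D := D) (fun i => f (i + 2)) (fun j => g (j + 2)) ?_ ?_ ?_ ?_ ?_ ?_ ?_
        · intro i j hij hj; exact hf _ _ (by omega) (by omega)
        · intro i j hij hj; exact hg _ _ (by omega) (by omega)
        · intro i hi; exact vf _ (by omega)
        · intro i hi; exact vg _ (by omega)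
        · intro i hi
          have := mf 1 (i + 2) (by omega) (by omega)
          omega
        · intro i hi
          have := mg 1 (i + 2) (by omega) (by omega)
          omega
        · intro i j hi hj
          rw [h _ _ (by omega) (by omega), HPs _ _ (by omega) (by omega)]
          unfold Pi0
          omega
  obtain ⟨kf, kg⟩ := kfg
  have entfg : ∀ i j, i < 27 → j < 27 → (Pi0 (sb (f i)) (sb (g j)) ↔ Pi0 i j) := by
    intro i j hi hj
    rw [← ent_00 (D := D) (kf i hi) (kg j hj), h i j (by omega) (by omega), HPs i j hi hj]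
  have bf : ∀ i, i < 27 → sb (f i) < 27 := by
    intro i hi
    have := vf i (by omega)
    have := kf i hi
    unfold Valid at *
    omega
  have bg : ∀ i, i < 27 → sb (g i) < 27 := by
    intro i hi
    have := vg i (by omega)
    have := kg i hi
    unfold Valid at *
    omega
  have incf : ∀ i, i + 1 < 27 → sb (f i) < sb (f (i + 1)) := by
    intro i hi
    have lt := (key_lt _ _).1 (hf i (i + 1) (by omega) (by omega))
    have k0 := kf i (by omega)
    have k1 := kf (i + 1) hi
    rcases (by omega : sb (f i) < sb (f (i + 1)) ∨ sb (f i) = sb (f (i + 1))) with h1 | h1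
    · exact h1
    · exfalso
      have w : ∀ j, j < 27 → (Pi0 i j ↔ Pi0 (i + 1) j) := by
        intro j hj
        rw [← entfg i j (by omega) hj, ← entfg (i + 1) j hi hj, h1]
      have w1 := w 1 (by omega)
      have w2 := w i (by omega)
      unfold Pi0 at w1 w2
      omega
  have incg : ∀ i, i + 1 < 27 → sb (g i) < sb (g (i + 1)) := by
    intro i hi
    have lt := (key_lt _ _).1 (hg i (i + 1) (by omega) (by omega))
    have k0 := kg i (by omega)
    have k1 := kg (i + 1) hi
    rcases (by omega : sb (g i) < sb (g (i + 1)) ∨ sb (g i) = sb (g (i + 1))) with h1 | h1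
    · exact h1
    · exfalso
      have w : ∀ j, j < 27 → (Pi0 j i ↔ Pi0 j (i + 1)) := by
        intro j hj
        rw [← entfg j i hj (by omega), ← entfg j (i + 1) hj hi, h1]
      have w1 := w 0 (by omega)
      have w3 := w 1 (by omega)
      have w2 := w i (by omega)
      unfold Pi0 at w1 w2 w3
      omega
  have lowf : ∀ i, i < 27 → i ≤ sb (f i) := by
    intro i
    induction i with
    | zero => intro _; omega
    | succ n ih => intro hn; have := ih (by omega); have := incf n hn; omega
  have lowg : ∀ i, i < 27 → i ≤ sb (g i) := by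
    intro i
    induction i with
    | zero => intro _; omega
    | succ n ih => intro hn; have := ih (by omega); have := incg n hn; omega
  have upf : ∀ k, k ≤ 26 → sb (f (26 - k)) ≤ 26 - k := by
    intro k
    induction k with
    | zero => intro _; have := bf 26 (by omega); simpa using (by omega : sb (f 26) ≤ 26)
    | succ n ih =>
      intro hn
      have h1 := ih (by omega)
      have h2 := incf (26 - (n + 1)) (by omega)
      have h3 : 26 - (n + 1) + 1 = 26 - n := by omega
      rw [h3] at h2
      omega
  have upg : ∀ k, k ≤ 26 → sb (g (26 - k)) ≤ 26 - k := by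
    intro k
    induction k with
    | zero => intro _; have := bg 26 (by omega); simpa using (by omega : sb (g 26) ≤ 26)
    | succ n ih =>
      intro hn
      have h1 := ih (by omega)
      have h2 := incg (26 - (n + 1)) (by omega)
      have h3 : 26 - (n + 1) + 1 = 26 - n := by omega
      rw [h3] at h2
      omega
  have sf : ∀ i, i < 27 → sb (f i) = i := by
    intro i hi
    have h1 := lowf i hi
    have h2 := upf (26 - i) (by omega)
    have h3 : 26 - (26 - i) = i := by omega
    rw [h3] at h2
    omega
  have sg : ∀ i, i < 27 → sb (g i) = i := by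
    intro i hi
    have h1 := lowg i hi
    have h2 := upg (26 - i) (by omega)
    have h3 : 26 - (26 - i) = i := by omega
    rw [h3] at h2
    omega
  -- signature rows and columns
  have tf : ∀ i, i = 27 ∨ i = 28 → 1 ≤ kd (f i) ∧ kd (f i) ≤ 2 := by
    intro i hi
    have e0 := h i 0 (by omega) (by omega)
    have e1 := h i 1 (by omega) (by omega)
    have n0 : ¬ HP i 0 := by rcases hi with rfl | rfl <;> decide
    have n1 : ¬ HP i 1 := by rcases hi with rfl | rfl <;> decide
    rw [← e0] at n0
    rw [← e1] at n1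
    by_contra hk
    rcases (by omega : kd (f i) = 0 ∨ 3 ≤ kd (f i)) with k | k
    · rw [ent_00 k (kg 0 (by omega)), sg 0 (by omega)] at n0
      rw [ent_00 k (kg 1 (by omega)), sg 1 (by omega)] at n1
      unfold Pi0 at n0 n1
      omega
    · exact n0 (ent_m0 (kg 0 (by omega)) k)
  have tg : ∀ i, i = 27 ∨ i = 28 → 1 ≤ kd (g i) ∧ kd (g i) ≤ 2 := by
    intro i hi
    have e0 := h 0 i (by omega) (by omega)
    have e1 := h 1 i (by omega) (by omega)
    have n0 : ¬ HP 0 i := by rcases hi with rfl | rfl <;> decide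
    have n1 : ¬ HP 1 i := by rcases hi with rfl | rfl <;> decide
    rw [← e0] at n0
    rw [← e1] at n1
    by_contra hk
    rcases (by omega : kd (g i) = 0 ∨ 3 ≤ kd (g i)) with k | k
    · rw [ent_00 (kf 0 (by omega)) k, sf 0 (by omega)] at n0
      rw [ent_00 (kf 1 (by omega)) k, sf 1 (by omega)] at n1
      unfold Pi0 at n0 n1
      omega
    · exact n0 (ent_0m (kf 0 (by omega)) k)
  have rf : ∀ i, 29 ≤ i → i < 32 → 3 ≤ kd (f i) := by
    intro i hi hi'
    have e0 := h i 0 (by omega) (by omega)
    have e1 := h i 1 (by omega) (by omega)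
    have n0 : HP i 0 := by
      rcases (by omega : i = 29 ∨ i = 30 ∨ i = 31) with rfl | rfl | rfl <;> decide
    have n1 : HP i 1 := by
      rcases (by omega : i = 29 ∨ i = 30 ∨ i = 31) with rfl | rfl | rfl <;> decide
    rw [← e0] at n0
    rw [← e1] at n1
    by_contra hk
    rcases (by omega : kd (f i) = 0 ∨ (1 ≤ kd (f i) ∧ kd (f i) ≤ 2)) with k | k
    · rw [ent_00 k (kg 0 (by omega)), sg 0 (by omega)] at n0
      rw [ent_00 k (kg 1 (by omega)), sg 1 (by omega)] at n1
      unfold Pi0 at n0 n1
      omega
    · exact ent_s0 (kg 0 (by omega)) k.1 k.2 n0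
  have rg : ∀ i, 29 ≤ i → i < 32 → 3 ≤ kd (g i) := by
    intro i hi hi'
    have e0 := h 0 i (by omega) (by omega)
    have e1 := h 1 i (by omega) (by omega)
    have n0 : HP 0 i := by
      rcases (by omega : i = 29 ∨ i = 30 ∨ i = 31) with rfl | rfl | rfl <;> decide
    have n1 : HP 1 i := by
      rcases (by omega : i = 29 ∨ i = 30 ∨ i = 31) with rfl | rfl | rfl <;> decide
    rw [← e0] at n0
    rw [← e1] at n1
    by_contra hk
    rcases (by omega : kd (g i) = 0 ∨ (1 ≤ kd (g i) ∧ kd (g i) ≤ 2)) with k | k
    · rw [ent_00 (kf 0 (by omega)) k, sf 0 (by omega)] at n0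
      rw [ent_00 (kf 1 (by omega)) k, sf 1 (by omega)] at n1
      unfold Pi0 at n0 n1
      omega
    · exact ent_0s (kf 0 (by omega)) k.1 k.2 n0
  -- all names agree
  have f27 := tf 27 (by omega)
  have f28 := tf 28 (by omega)
  have g27 := tg 27 (by omega)
  have g28 := tg 28 (by omega)
  have n1 : sb (f 27) = sb (g 27) := by
    rw [← ent_ss (D := D) f27.1 f27.2 g27.1 g27.2, h 27 27 (by omega) (by omega)]; decide
  have n2 : sb (f 27) = sb (g 28) := by
    rw [← ent_ss (D := D) f27.1 f27.2 g28.1 g28.2, h 27 28 (by omega) (by omega)]; decide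
  have n3 : sb (f 28) = sb (g 27) := by
    rw [← ent_ss (D := D) f28.1 f28.2 g27.1 g27.2, h 28 27 (by omega) (by omega)]; decide
  -- kinds of signature rows and columns
  have q1 : kd (f 27) ≠ kd (f 28) := by
    intro hh
    have e := ent_congr_row (D := D) (c := g 30) hh (by omega) (by omega)
    rw [h 27 30 (by omega) (by omega), h 28 30 (by omega) (by omega)] at e
    exact absurd e (by decide)
  have q2 : kd (g 27) ≠ kd (g 28) := by
    intro hh
    have e := ent_congr_col (D := D) (r := f 30) hh (by omega) (by omega)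
    rw [h 30 27 (by omega) (by omega), h 30 28 (by omega) (by omega)] at e
    exact absurd e (by decide)
  have q3 := mf 27 28 (by omega) (by omega)
  have q4 := mg 27 28 (by omega) (by omega)
  have p1 : kd (f 27) = 1 := by omega
  have p2 : kd (f 28) = 2 := by omega
  have p3 : kd (g 27) = 1 := by omega
  have p4 : kd (g 28) = 2 := by omega
  have accc : ∀ i j, (i = 27 ∨ i = 28) → 29 ≤ j → j < 32 → HP i j →
      accC D (kd (f i)) (sb (f i)) (kd (g j)) (sb (g j)) (ix (g j)) := by
    intro i j hi hj hj' hh
    have := tf i hi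
    rw [← ent_sm this.1 this.2 (rg j hj hj')]
    exact (h i j (by omega) hj').2 hh
  have accr : ∀ i j, (j = 27 ∨ j = 28) → 29 ≤ i → i < 32 → HP i j →
      accR D (kd (g j)) (sb (g j)) (kd (f i)) (sb (f i)) (ix (f i)) := by
    intro i j hj hi hi' hh
    have := tg j hj
    rw [← ent_ms this.1 this.2 (rf i hi hi')]
    exact (h i j hi' (by omega)).2 hh
  have κb : sb (f 27) < 4 * D + 5 := by
    have := vf 27 (by omega)
    unfold Valid at this
    omega
  refine core_cell (κ := sb (f 27)) hD κb (r1 := f 29) (r2 := f 30) (r3 := f 31) (c1 := g 29)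
    (c2 := g 30) (c3 := g 31) (hf _ _ (by omega) (by omega)) (hf _ _ (by omega) (by omega))
    (hg _ _ (by omega) (by omega)) (hg _ _ (by omega) (by omega)) (vf 30 (by omega))
    (vg 30 (by omega)) ?_ ?_ ?_ ?_ ?_ ?_ ?_ ?_ ?_ ?_ ?_ ?_
  · have := accr 29 27 (by omega) (by omega) (by omega) (by decide)
    rwa [p3, ← n1] at this
  · have := accr 31 27 (by omega) (by omega) (by omega) (by decide)
    rwa [p3, ← n1] at this
  · have := accr 30 28 (by omega) (by omega) (by omega) (by decide)
    rwa [p4, ← n2] at this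
  · have := accc 27 29 (by omega) (by omega) (by omega) (by decide)
    rwa [p1] at this
  · have := accc 27 31 (by omega) (by omega) (by omega) (by decide)
    rwa [p1] at this
  · have := accc 28 30 (by omega) (by omega) (by omega) (by decide)
    rwa [p2, n3, ← n1] at this
  · exact (h 29 29 (by omega) (by omega)).2 (by decide)
  · exact (h 29 30 (by omega) (by omega)).2 (by decide)
  · exact (h 31 30 (by omega) (by omega)).2 (by decide)
  · exact (h 30 29 (by omega) (by omega)).2 (by decide)
  · exact (h 30 31 (by omega) (by omega)).2 (by decide)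
  · rw [h 30 30 (by omega) (by omega)]; decide

end Vale.Agent.P037h
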