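import Mathlib

open Finset

namespace Vale.Agent.P037h

/-- Triples of natural numbers in lexicographic order; they index rows and columns. -/
abbrev Key := ℕ ×ₗ (ℕ ×ₗ ℕ)

/-- The kind of a row or column (between 0 and 6). -/
def kd (x : Key) : ℕ := (ofLex x).1
/-- The second coordinate: name of the group, or the cell. -/
def sb (x : Key) : ℕ := (ofLex (ofLex x).2).1
/-- The third coordinate: index in the group, or place in the cell. -/
def ix (x : Key) : ℕ := (ofLex (ofLex x).2).2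
/-- The key with given coordinates. -/
def mk (a b c : ℕ) : Key := toLex (a, toLex (b, c))

@[simp] theorem kd_mk (a b c : ℕ) : kd (mk a b c) = a := rfl
@[simp] theorem sb_mk (a b c : ℕ) : sb (mk a b c) = b := rfl
@[simp] theorem ix_mk (a b c : ℕ) : ix (mk a b c) = c := rfl

theorem key_lt (x y : Key) : x < y ↔
    kd x < kd y ∨ (kd x = kd y ∧ (sb x < sb y ∨ (sb x = sb y ∧ ix x < ix y))) := by
  rw [Prod.Lex.lt_iff, Prod.Lex.lt_iff]
  rfl

theorem key_ext {x y : Key} (h1 : kd x = kd y) (h2 : sb x = sb y) (h3 : ix x = ix y) : x = y := by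
  have : ofLex x = ofLex y := Prod.ext h1 (by
    have : ofLex (ofLex x).2 = ofLex (ofLex y).2 := Prod.ext h2 h3
    exact this)
  exact this

/-- The anchor pattern. -/
def Pi0 (i j : ℕ) : Prop :=
  (i = 0 ∧ j = 1) ∨ (i = 1 ∧ j ≠ 1) ∨ (2 ≤ i ∧ j = 1) ∨ (2 ≤ i ∧ 2 ≤ j ∧ i ≠ j)

instance (i j : ℕ) : Decidable (Pi0 i j) := by unfold Pi0; infer_instance

/-- The level of a place in a cell. -/
def lev (D t : ℕ) : ℕ := if t ≤ D then t else 2 * D + 1 - t

/-- Entry between the main row (cell `x`, place `t`) and the main column (cell `y`, place `u`). -/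
def tree (D x t y u : ℕ) : Prop :=
  lev D u + 1 ≤ D ∧ (lev D u + 1 = lev D t ∨ lev D u = lev D t) ∧
    x / 2 ^ (D - lev D t) = y / 2 ^ (D - lev D t)

/-- Entry between the row `(a, b, c)` of kind at least 3 and a signature column `(m, κ)`. -/
def accR (D m κ a b c : ℕ) : Prop :=
  if m = 1 then
    if κ = 4 * D + 4 then (a = 4 ∧ lev D c = D) ∨ a = 6
    else if κ % 4 < 2 then a = 4 ∧ lev D c + 1 = κ / 4
    else a = 3 ∨ a = 6
  else
    if κ = 4 * D + 4 then a = 5
    else a = 4 ∧ lev D c = κ / 4 ∧ (b / 2 ^ (D - κ / 4)) % 2 = κ % 2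

/-- Entry between a signature row `(m, κ)` and the column `(a, b, c)` of kind at least 3. -/
def accC (D m κ a b c : ℕ) : Prop :=
  if m = 1 then
    if κ = 4 * D + 4 then (a = 4 ∧ lev D c = D) ∨ a = 6
    else if κ % 4 < 2 then a = 3 ∨ a = 6
    else if κ / 4 = 0 then a = 3 ∨ a = 6
    else a = 4 ∧ lev D c + 1 = κ / 4 ∧ (b / 2 ^ (D - κ / 4)) % 2 = κ % 2
  else
    if κ = 4 * D + 4 then a = 5
    else if κ % 4 < 2 then a = 4 ∧ lev D c + 1 = κ / 4 ∧ (b / 2 ^ (D - κ / 4)) % 2 = κ % 2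
    else a = 4 ∧ lev D c = κ / 4

/-- The entry of the host matrix at row `r` and column `c`. -/
def ent (D : ℕ) (r c : Key) : Prop :=
  if kd r = 0 then
    if kd c = 0 then Pi0 (sb r) (sb c) else if kd c ≤ 2 then False else True
  else if kd r ≤ 2 then
    if kd c = 0 then False else if kd c ≤ 2 then sb r = sb c
    else accC D (kd r) (sb r) (kd c) (sb c) (ix c)
  else
    if kd c = 0 then True else if kd c ≤ 2 then accR D (kd c) (sb c) (kd r) (sb r) (ix r)
    else if kd r = 5 then kd c ≠ 5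
    else if kd r = 4 ∧ kd c = 4 then tree D (sb r) (ix r) (sb c) (ix c) else True

/-- The forbidden pattern. -/
def HP (i j : ℕ) : Prop :=
  if i < 27 then
    if j < 27 then Pi0 i j else if j < 29 then False else True
  else if i < 29 then
    if j < 27 then False else if j < 29 then True
    else if i = 27 then j ≠ 30 else j = 30
  else
    if j < 27 then True else if j < 29 then (if j = 27 then i ≠ 30 else i = 30)
    else ¬ (i = 30 ∧ j = 30)

instance (i j : ℕ) : Decidable (HP i j) := by unfold HP; infer_instance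

/-- Validity of a key. -/
def Valid (D : ℕ) (x : Key) : Prop :=
  (kd x = 0 ∧ sb x < 27 ∧ ix x < 2 ^ D) ∨
  ((kd x = 1 ∨ kd x = 2) ∧ sb x < 4 * D + 5 ∧ ix x < 2 ^ D) ∨
  ((kd x = 3 ∨ kd x = 5 ∨ kd x = 6) ∧ sb x = 0 ∧ ix x < 2 ^ D) ∨
  (kd x = 4 ∧ sb x < 2 ^ D ∧ ix x < 2 * D + 2)

/-! ### Evaluation of `ent` -/

section
variable {D : ℕ} {r c : Key}

theorem ent_00 (h1 : kd r = 0) (h2 : kd c = 0) : ent D r c ↔ Pi0 (sb r) (sb c) := by
  simp [ent, h1, h2]

theorem ent_0s (h1 : kd r = 0) (h2 : 1 ≤ kd c) (h3 : kd c ≤ 2) : ¬ ent D r c := by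
  have h : kd c ≠ 0 := by omega
  simp [ent, h1, h, h3]

theorem ent_0m (h1 : kd r = 0) (h2 : 3 ≤ kd c) : ent D r c := by
  have h : kd c ≠ 0 := by omega
  have h' : ¬ kd c ≤ 2 := by omega
  simp [ent, h1, h, h']

theorem ent_s0 (h1 : kd c = 0) (h2 : 1 ≤ kd r) (h3 : kd r ≤ 2) : ¬ ent D r c := by
  have h : kd r ≠ 0 := by omega
  simp [ent, h1, h, h3]

theorem ent_m0 (h1 : kd c = 0) (h2 : 3 ≤ kd r) : ent D r c := by
  have h : kd r ≠ 0 := by omega
  have h' : ¬ kd r ≤ 2 := by omega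
  simp [ent, h1, h, h']

theorem ent_ss (h2 : 1 ≤ kd r) (h3 : kd r ≤ 2) (h4 : 1 ≤ kd c) (h5 : kd c ≤ 2) :
    ent D r c ↔ sb r = sb c := by
  have h : kd r ≠ 0 := by omega
  have h' : kd c ≠ 0 := by omega
  simp [ent, h, h', h3, h5]

theorem ent_sm (h2 : 1 ≤ kd r) (h3 : kd r ≤ 2) (h4 : 3 ≤ kd c) :
    ent D r c ↔ accC D (kd r) (sb r) (kd c) (sb c) (ix c) := by
  have h : kd r ≠ 0 := by omega
  have h' : kd c ≠ 0 := by omega
  have h'' : ¬ kd c ≤ 2 := by omega
  simp [ent, h, h', h3, h'']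

theorem ent_ms (h2 : 1 ≤ kd c) (h3 : kd c ≤ 2) (h4 : 3 ≤ kd r) :
    ent D r c ↔ accR D (kd c) (sb c) (kd r) (sb r) (ix r) := by
  have h : kd c ≠ 0 := by omega
  have h' : kd r ≠ 0 := by omega
  have h'' : ¬ kd r ≤ 2 := by omega
  simp [ent, h, h', h3, h'']

theorem ent_44 (h2 : kd r = 4) (h3 : kd c = 4) :
    ent D r c ↔ tree D (sb r) (ix r) (sb c) (ix c) := by
  simp [ent, h2, h3]

theorem ent_5m (h2 : kd r = 5) (h3 : 3 ≤ kd c) : ent D r c ↔ kd c ≠ 5 := by
  have h' : kd c ≠ 0 := by omega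
  have h'' : ¬ kd c ≤ 2 := by omega
  simp [ent, h2, h', h'']

theorem ent_mm (h1 : 3 ≤ kd r) (h2 : kd r ≠ 5) (h3 : 3 ≤ kd c) (h4 : ¬ (kd r = 4 ∧ kd c = 4)) :
    ent D r c := by
  have h : kd r ≠ 0 := by omega
  have h'' : ¬ kd r ≤ 2 := by omega
  have h' : kd c ≠ 0 := by omega
  have h''' : ¬ kd c ≤ 2 := by omega
  simp only [ent, h, h'', h', h''', h2, h4, if_false]

end

/-- Two columns of the same group (not of kind 4) agree everywhere. -/
theorem ent_congr_col {D : ℕ} {r c c' : Key} (h1 : kd c = kd c') (h2 : sb c = sb c')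
    (h3 : kd c ≠ 4) : ent D r c ↔ ent D r c' := by
  have h3' : kd c' ≠ 4 := h1 ▸ h3
  simp only [ent, h1, h2, accC, h3', false_and, and_false, if_false]

/-- Two rows of the same group (not of kind 4) agree everywhere. -/
theorem ent_congr_row {D : ℕ} {r r' c : Key} (h1 : kd r = kd r') (h2 : sb r = sb r')
    (h3 : kd r ≠ 4) : ent D r c ↔ ent D r' c := by
  have h3' : kd r' ≠ 4 := h1 ▸ h3
  simp only [ent, h1, h2, accR, h3', false_and, if_false]

end Vale.Agent.P037h
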