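import Vale.Agent.P037h.Defs

open Finset

namespace Vale.Agent.P037h

open Classical in
/-- The finite set of all valid keys. -/
noncomputable def S (D : ℕ) : Finset Key :=
  ((range 7 ×ˢ (range (27 + (4 * D + 5) + 2 ^ D) ×ˢ range (2 ^ D + (2 * D + 2)))).image
    (fun p => mk p.1 p.2.1 p.2.2)).filter (Valid D)

theorem mem_S {D : ℕ} {x : Key} : x ∈ S D ↔ Valid D x := by
  classical
  unfold S
  rw [mem_filter]
  constructor
  · exact fun h => h.2
  · intro h
    refine ⟨?_, h⟩
    rw [mem_image]
    refine ⟨(kd x, (sb x, ix x)), ?_, key_ext rfl rfl rfl⟩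
    have h1 : 1 ≤ 2 ^ D := Nat.one_le_two_pow
    simp only [mem_product, mem_range]
    unfold Valid at h
    omega

open Classical in
/-- The error positions. -/
noncomputable def Er (D : ℕ) (B : Key → Key → Prop) : Finset (Key × Key) :=
  (S D ×ˢ S D).filter (fun p => ¬ (B p.1 p.2 ↔ ent D p.1 p.2))

theorem mem_Er {D : ℕ} {B : Key → Key → Prop} {x y : Key} :
    (x, y) ∈ Er D B ↔ (Valid D x ∧ Valid D y) ∧ ¬ (B x y ↔ ent D x y) := by
  classical
  simp only [Er, mem_filter, mem_product, mem_S]

/-- The errors in a row. -/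
noncomputable def eR (D : ℕ) (B : Key → Key → Prop) (x : Key) : ℕ :=
  ((Er D B).filter (fun p => p.1 = x)).card

/-- The errors in a column. -/
noncomputable def eC (D : ℕ) (B : Key → Key → Prop) (y : Key) : ℕ :=
  ((Er D B).filter (fun p => p.2 = y)).card

/-- An ordered copy of the pattern among the valid keys. -/
def HasCopy (D : ℕ) (B : Key → Key → Prop) : Prop :=
  ∃ f g : ℕ → Key, (∀ i j, i < j → j < 32 → f i < f j) ∧ (∀ i j, i < j → j < 32 → g i < g j) ∧
    (∀ i, i < 32 → Valid D (f i)) ∧ (∀ i, i < 32 → Valid D (g i)) ∧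
    ∀ i j, i < 32 → j < 32 → (B (f i) (g j) ↔ HP i j)

theorem extract {D : ℕ} {B : Key → Key → Prop} (hE : 1024 * (Er D B).card < 2 ^ D * 2 ^ D)
    (R C : ℕ → ℕ → Key)
    (vR : ∀ i i0, i < 32 → i0 < 2 ^ D → Valid D (R i i0))
    (vC : ∀ i i0, i < 32 → i0 < 2 ^ D → Valid D (C i i0))
    (sR : ∀ i, i < 32 → Function.Injective (R i) ∨
      ∃ x, 1024 * eR D B x < 2 ^ D ∧ ∀ i0, R i i0 = x)
    (sC : ∀ i, i < 32 → Function.Injective (C i) ∨
      ∃ x, 1024 * eC D B x < 2 ^ D ∧ ∀ i0, C i i0 = x)
    (h : ∀ i j, i < 32 → j < 32 →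
      (∀ i0 i1, i0 < 2 ^ D → i1 < 2 ^ D → (B (R i i0) (C j i1) ↔ HP i j)) ∨
      ((∀ i0 i1, i0 < 2 ^ D → i1 < 2 ^ D → (ent D (R i i0) (C j i1) ↔ HP i j)) ∧
        (Function.Injective (R i) ∨ Function.Injective (C j)))) :
    ∃ i0 i1, i0 < 2 ^ D ∧ i1 < 2 ^ D ∧ ∀ i j, i < 32 → j < 32 → (B (R i i0) (C j i1) ↔ HP i j) := by
  classical
  set s := 2 ^ D with hs
  have spos : 0 < s := by positivity
  -- the bad sets
  let Bad : ℕ × ℕ → Finset (ℕ × ℕ) := fun q =>
    (range s ×ˢ range s).filter (fun p => ¬ (B (R q.1 p.1) (C q.2 p.2) ↔ HP q.1 q.2))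
  have hBad : ∀ q ∈ range 32 ×ˢ range 32, 1024 * (Bad q).card < s * s := by
    rintro ⟨i, j⟩ hq
    rw [mem_product, mem_range, mem_range] at hq
    obtain ⟨hi, hj⟩ := hq
    simp only at hi hj
    rcases h i j hi hj with h1 | ⟨h1, h2⟩
    · have : Bad (i, j) = ∅ := by
        rw [Finset.eq_empty_iff_forall_notMem]
        rintro ⟨i0, i1⟩ hp
        simp only [Bad, mem_filter, mem_product, mem_range] at hp
        exact hp.2 (h1 i0 i1 hp.1.1 hp.1.2)
      rw [this, card_empty]
      simpa using Nat.mul_pos spos spos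
    · have toEr : ∀ i0 i1, (i0, i1) ∈ Bad (i, j) → i0 < s ∧ i1 < s ∧ (R i i0, C j i1) ∈ Er D B := by
        intro i0 i1 hp
        simp only [Bad, mem_filter, mem_product, mem_range] at hp
        refine ⟨hp.1.1, hp.1.2, ?_⟩
        rw [mem_Er]
        refine ⟨⟨vR i i0 hi hp.1.1, vC j i1 hj hp.1.2⟩, ?_⟩
        rw [h1 i0 i1 hp.1.1 hp.1.2]
        exact hp.2
      rcases sR i hi with r1 | ⟨x, r1, r2⟩
      · rcases sC j hj with c1 | ⟨y, c1, c2⟩
        · have : (Bad (i, j)).card ≤ (Er D B).card := by
            apply card_le_card_of_injOn (fun p => (R i p.1, C j p.2))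
            · rintro ⟨i0, i1⟩ hp
              exact (toEr i0 i1 hp).2.2
            · rintro ⟨i0, i1⟩ _ ⟨k0, k1⟩ _ hh
              simp only [Prod.mk.injEq] at hh
              exact Prod.ext (r1 hh.1) (c1 hh.2)
          omega
        · have : (Bad (i, j)).card ≤ (((Er D B).filter (fun p => p.2 = y)) ×ˢ range s).card := by
            apply card_le_card_of_injOn (fun p => ((R i p.1, C j p.2), p.2))
            · rintro ⟨i0, i1⟩ hp
              have := toEr i0 i1 hp
              simp only [coe_product, coe_filter, coe_range, Set.mem_prod, Set.mem_ofPred_eq, Set.mem_Iio]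
              exact ⟨⟨this.2.2, c2 i1⟩, this.2.1⟩
            · rintro ⟨i0, i1⟩ _ ⟨k0, k1⟩ _ hh
              simp only [Prod.mk.injEq] at hh
              exact Prod.ext (r1 hh.1.1) hh.2
          rw [card_product, card_range] at this
          calc 1024 * (Bad (i, j)).card ≤ 1024 * (eC D B y * s) := Nat.mul_le_mul_left _ this
            _ = (1024 * eC D B y) * s := by ring
            _ < s * s := Nat.mul_lt_mul_of_pos_right c1 spos
      · rcases sC j hj with c1 | ⟨y, c1, c2⟩
        · have : (Bad (i, j)).card ≤ (((Er D B).filter (fun p => p.1 = x)) ×ˢ range s).card := by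
            apply card_le_card_of_injOn (fun p => ((R i p.1, C j p.2), p.1))
            · rintro ⟨i0, i1⟩ hp
              have := toEr i0 i1 hp
              simp only [coe_product, coe_filter, coe_range, Set.mem_prod, Set.mem_ofPred_eq, Set.mem_Iio]
              exact ⟨⟨this.2.2, r2 i0⟩, this.1⟩
            · rintro ⟨i0, i1⟩ _ ⟨k0, k1⟩ _ hh
              simp only [Prod.mk.injEq] at hh
              exact Prod.ext hh.2 (c1 hh.1.2)
          rw [card_product, card_range] at this
          calc 1024 * (Bad (i, j)).card ≤ 1024 * (eR D B x * s) := Nat.mul_le_mul_left _ this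
            _ = (1024 * eR D B x) * s := by ring
            _ < s * s := Nat.mul_lt_mul_of_pos_right r1 spos
        · exfalso
          rcases h2 with h2 | h2
          · have := @h2 0 1 (by rw [r2, r2])
            omega
          · have := @h2 0 1 (by rw [c2, c2])
            omega
  have hU : ((range 32 ×ˢ range 32).biUnion Bad).card < s * s := by
    have h1 : ((range 32 ×ˢ range 32).biUnion Bad).card ≤ ∑ q ∈ range 32 ×ˢ range 32, (Bad q).card :=
      card_biUnion_le
    have h2 : ∑ q ∈ range 32 ×ˢ range 32, 1024 * (Bad q).card <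
        ∑ q ∈ range 32 ×ˢ range 32, s * s := by
      apply Finset.sum_lt_sum_of_nonempty
      · exact ⟨(0, 0), by simp⟩
      · exact hBad
    rw [← Finset.mul_sum] at h2
    simp only [sum_const, card_product, card_range, smul_eq_mul] at h2
    omega
  have hex : ∃ p ∈ range s ×ˢ range s, p ∉ (range 32 ×ˢ range 32).biUnion Bad := by
    by_contra hcon
    push Not at hcon
    have := card_le_card (s := range s ×ˢ range s) (t := (range 32 ×ˢ range 32).biUnion Bad)
      (fun p hp => hcon p hp)
    rw [card_product, card_range] at this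
    omega
  obtain ⟨⟨i0, i1⟩, hp, hp2⟩ := hex
  rw [mem_product, mem_range, mem_range] at hp
  refine ⟨i0, i1, hp.1, hp.2, ?_⟩
  intro i j hi hj
  by_contra hcon
  apply hp2
  rw [mem_biUnion]
  refine ⟨(i, j), by simp [hi, hj], ?_⟩
  simp only [Bad, mem_filter, mem_product, mem_range]
  exact ⟨hp, hcon⟩

/-- The selection of rows or columns. -/
def sel (κ : ℕ) (r : ℕ → ℕ → Key) (i i0 : ℕ) : Key :=
  if i < 27 then mk 0 i i0 else if i < 29 then mk (i - 26) κ i0 else r (i - 29) i0

theorem sel_valid {D κ : ℕ} (hκ : κ < 4 * D + 5) {r : ℕ → ℕ → Key}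
    (vr : ∀ a i0, a < 3 → i0 < 2 ^ D → Valid D (r a i0)) :
    ∀ i i0, i < 32 → i0 < 2 ^ D → Valid D (sel κ r i i0) := by
  intro i i0 hi h0
  unfold sel
  split_ifs with h1 h2
  · left; simp; omega
  · right; left; simp; omega
  · exact vr _ _ (by omega) h0

theorem sel_spec {κ : ℕ} {r : ℕ → ℕ → Key} {P : Key → Prop}
    (sr : ∀ a, a < 3 → Function.Injective (r a) ∨ ∃ x, P x ∧ ∀ i0, r a i0 = x) :
    ∀ i, i < 32 → Function.Injective (sel κ r i) ∨ ∃ x, P x ∧ ∀ i0, sel κ r i i0 = x := by
  intro i hi
  rcases (by omega : i < 27 ∨ (27 ≤ i ∧ i < 29) ∨ 29 ≤ i) with h | h | h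
  · left
    intro x y hxy
    simp only [sel, h, if_true] at hxy
    simpa using congrArg ix hxy
  · left
    intro x y hxy
    have h' : ¬ i < 27 := by omega
    simp only [sel, h', h.2, if_true, if_false] at hxy
    simpa using congrArg ix hxy
  · have h' : ¬ i < 27 := by omega
    have h'' : ¬ i < 29 := by omega
    have hs : sel κ r i = r (i - 29) := by
      funext x
      simp only [sel, h', h'', if_false]
    rw [hs]
    exact sr (i - 29) (by omega)

theorem sel_lt {κ : ℕ} {r : ℕ → ℕ → Key} {i0 : ℕ} (h3 : 3 ≤ kd (r 0 i0))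
    (h01 : r 0 i0 < r 1 i0) (h12 : r 1 i0 < r 2 i0) :
    ∀ i j, i < j → j < 32 → sel κ r i i0 < sel κ r j i0 := by
  have k1 : 3 ≤ kd (r 1 i0) := by have := (key_lt _ _).1 h01; omega
  have k2 : 3 ≤ kd (r 2 i0) := by have := (key_lt _ _).1 h12; omega
  intro i j hij hj
  rcases (by omega : i < 27 ∨ (27 ≤ i ∧ i < 29) ∨ 29 ≤ i) with h | h | h
  · rcases (by omega : j < 27 ∨ (27 ≤ j ∧ j < 29) ∨ 29 ≤ j) with h' | h' | h'
    · rw [key_lt]
      simp only [sel, h, h', if_true, kd_mk, sb_mk, ix_mk]
      right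
      exact ⟨trivial, Or.inl hij⟩
    · have n : ¬ j < 27 := by omega
      rw [key_lt]
      simp only [sel, h, h', n, if_true, if_false, kd_mk, sb_mk, ix_mk]
      omega
    · have n : ¬ j < 27 := by omega
      have n' : ¬ j < 29 := by omega
      rw [key_lt]
      simp only [sel, h, n, n', if_true, if_false, kd_mk, sb_mk, ix_mk]
      rcases (by omega : j = 29 ∨ j = 30 ∨ j = 31) with rfl | rfl | rfl <;> simp <;> omega
  · have m : ¬ i < 27 := by omega
    rcases (by omega : j < 29 ∨ 29 ≤ j) with h' | h'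
    · have n : ¬ j < 27 := by omega
      rw [key_lt]
      simp only [sel, h, h', m, n, if_true, if_false, kd_mk, sb_mk, ix_mk]
      omega
    · have n : ¬ j < 27 := by omega
      have n' : ¬ j < 29 := by omega
      rw [key_lt]
      simp only [sel, h, m, n, n', if_true, if_false, kd_mk, sb_mk, ix_mk]
      rcases (by omega : j = 29 ∨ j = 30 ∨ j = 31) with rfl | rfl | rfl <;> simp <;> omega
  · rcases (by omega : (i = 29 ∧ j = 30) ∨ (i = 29 ∧ j = 31) ∨ (i = 30 ∧ j = 31)) with
      ⟨rfl, rfl⟩ | ⟨rfl, rfl⟩ | ⟨rfl, rfl⟩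
    · simpa [sel] using h01
    · simpa [sel] using h01.trans h12
    · simpa [sel] using h12

theorem extract3 {D : ℕ} {B : Key → Key → Prop} (hE : 1024 * (Er D B).card < 2 ^ D * 2 ^ D)
    {κ : ℕ} (hκ : κ < 4 * D + 5) (r c : ℕ → ℕ → Key)
    (vr : ∀ a i0, a < 3 → i0 < 2 ^ D → Valid D (r a i0))
    (vc : ∀ a i0, a < 3 → i0 < 2 ^ D → Valid D (c a i0))
    (sr : ∀ a, a < 3 → Function.Injective (r a) ∨
      ∃ x, 1024 * eR D B x < 2 ^ D ∧ ∀ i0, r a i0 = x)
    (sc : ∀ a, a < 3 → Function.Injective (c a) ∨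
      ∃ x, 1024 * eC D B x < 2 ^ D ∧ ∀ i0, c a i0 = x)
    (kr : ∀ i0, 3 ≤ kd (r 0 i0)) (kc : ∀ i0, 3 ≤ kd (c 0 i0))
    (r01 : ∀ i0, r 0 i0 < r 1 i0) (r12 : ∀ i0, r 1 i0 < r 2 i0)
    (c01 : ∀ i0, c 0 i0 < c 1 i0) (c12 : ∀ i0, c 1 i0 < c 2 i0)
    (ar : ∀ a i0, a < 3 → (accR D 1 κ (kd (r a i0)) (sb (r a i0)) (ix (r a i0)) ↔ a ≠ 1) ∧
      (accR D 2 κ (kd (r a i0)) (sb (r a i0)) (ix (r a i0)) ↔ a = 1))
    (ac : ∀ a i0, a < 3 → (accC D 1 κ (kd (c a i0)) (sb (c a i0)) (ix (c a i0)) ↔ a ≠ 1) ∧
      (accC D 2 κ (kd (c a i0)) (sb (c a i0)) (ix (c a i0)) ↔ a = 1))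
    (core : ∀ a b, a < 3 → b < 3 →
      (∀ i0 i1, (B (r a i0) (c b i1) ↔ ¬ (a = 1 ∧ b = 1))) ∨
      ((∀ i0 i1, (ent D (r a i0) (c b i1) ↔ ¬ (a = 1 ∧ b = 1))) ∧
        (Function.Injective (r a) ∨ Function.Injective (c b)))) :
    HasCopy D B := by
  have kr' : ∀ a i0, a < 3 → 3 ≤ kd (r a i0) := by
    intro a i0 ha
    have h1 := kr i0
    have h2 := (key_lt _ _).1 (r01 i0)
    have h3 := (key_lt _ _).1 (r12 i0)
    rcases (by omega : a = 0 ∨ a = 1 ∨ a = 2) with rfl | rfl | rfl <;> omega
  have kc' : ∀ a i0, a < 3 → 3 ≤ kd (c a i0) := by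
    intro a i0 ha
    have h1 := kc i0
    have h2 := (key_lt _ _).1 (c01 i0)
    have h3 := (key_lt _ _).1 (c12 i0)
    rcases (by omega : a = 0 ∨ a = 1 ∨ a = 2) with rfl | rfl | rfl <;> omega
  obtain ⟨i0, i1, h0, h1, hh⟩ := extract hE (sel κ r) (sel κ c) (sel_valid hκ vr) (sel_valid hκ vc)
    (sel_spec sr) (sel_spec sc) (by
      intro i j hi hj
      have injlo : ∀ (q : ℕ → ℕ → Key) i, i < 29 → Function.Injective (sel κ q i) := by
        intro q i hi x y hxy
        by_cases h : i < 27
        · simp only [sel, h, if_true] at hxy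
          simpa using congrArg ix hxy
        · simp only [sel, h, hi, if_true, if_false] at hxy
          simpa using congrArg ix hxy
      rcases (by omega : i < 27 ∨ (27 ≤ i ∧ i < 29) ∨ 29 ≤ i) with hi1 | hi1 | hi1
      · right
        refine ⟨?_, Or.inl (injlo r i (by omega))⟩
        intro i0 i1 h0 h1
        rcases (by omega : j < 27 ∨ (27 ≤ j ∧ j < 29) ∨ 29 ≤ j) with hj1 | hj1 | hj1
        · simp only [sel, hi1, hj1, if_true]
          rw [ent_00 rfl rfl]
          simp [HP, hi1, hj1]
        · have n : ¬ j < 27 := by omega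
          simp only [sel, hi1, hj1, n, if_true, if_false]
          have := ent_0s (D := D) (r := mk 0 i i0) (c := mk (j - 26) κ i1) rfl
            (by simp; omega) (by simp; omega)
          simp [HP, hi1, hj1, n, this]
        · have n : ¬ j < 27 := by omega
          have n' : ¬ j < 29 := by omega
          simp only [sel, hi1, n, n', if_true, if_false]
          have := ent_0m (D := D) (r := mk 0 i i0) (c := c (j - 29) i1) rfl (kc' _ _ (by omega))
          simp [HP, hi1, n, n', this]
      · have m : ¬ i < 27 := by omega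
        have m29 : ¬ 29 ≤ i := by omega
        right
        refine ⟨?_, Or.inl (injlo r i (by omega))⟩
        intro i0 i1 h0 h1
        rcases (by omega : j < 27 ∨ (27 ≤ j ∧ j < 29) ∨ 29 ≤ j) with hj1 | hj1 | hj1
        · simp only [sel, hi1, hj1, m, if_true, if_false]
          have := ent_s0 (D := D) (c := mk 0 j i1) (r := mk (i - 26) κ i0) rfl
            (by simp; omega) (by simp; omega)
          simp [HP, hi1, hj1, m, this]
        · have n : ¬ j < 27 := by omega
          simp only [sel, hi1, hj1, m, n, if_true, if_false]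
          rw [ent_ss (by simp; omega) (by simp; omega) (by simp; omega) (by simp; omega)]
          simp [HP, hi1, hj1, m, n]
        · have n : ¬ j < 27 := by omega
          have n' : ¬ j < 29 := by omega
          simp only [sel, hi1, m, n, n', if_true, if_false]
          rw [ent_sm (by simp; omega) (by simp; omega) (kc' _ _ (by omega))]
          have := ac (j - 29) i1 (by omega)
          simp only [kd_mk, sb_mk, HP, hi1, m, n, n', if_true, if_false]
          rcases (by omega : i = 27 ∨ i = 28) with rfl | rfl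
          · simp only [Nat.reduceSub, if_true]
            rw [this.1]
            omega
          · simp only [Nat.reduceSub, Nat.reduceEqDiff, if_false]
            rw [this.2]
            omega
      · have m : ¬ i < 27 := by omega
        have m' : ¬ i < 29 := by omega
        rcases (by omega : j < 27 ∨ (27 ≤ j ∧ j < 29) ∨ 29 ≤ j) with hj1 | hj1 | hj1
        · right
          refine ⟨?_, Or.inr (injlo c j (by omega))⟩
          intro i0 i1 h0 h1
          simp only [sel, m, m', hj1, if_true, if_false]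
          have := ent_m0 (D := D) (c := mk 0 j i1) (r := r (i - 29) i0) rfl (kr' _ _ (by omega))
          simp [HP, hj1, m, m', this]
        · have n : ¬ j < 27 := by omega
          right
          refine ⟨?_, Or.inr (injlo c j (by omega))⟩
          intro i0 i1 h0 h1
          simp only [sel, m, m', n, hj1, if_true, if_false]
          rw [ent_ms (by simp; omega) (by simp; omega) (kr' _ _ (by omega))]
          have := ar (i - 29) i0 (by omega)
          simp only [kd_mk, sb_mk, HP, hj1, m, m', n, if_true, if_false]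
          rcases (by omega : j = 27 ∨ j = 28) with rfl | rfl
          · simp only [Nat.reduceSub, if_true]
            rw [this.1]
            omega
          · simp only [Nat.reduceSub, Nat.reduceEqDiff, if_false]
            rw [this.2]
            omega
        · have n : ¬ j < 27 := by omega
          have n' : ¬ j < 29 := by omega
          have hsi : sel κ r i = r (i - 29) := by
            funext x
            simp only [sel, m, m', if_false]
          have hsj : sel κ c j = c (j - 29) := by
            funext x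
            simp only [sel, n, n', if_false]
          have hHP : HP i j ↔ ¬ (i - 29 = 1 ∧ j - 29 = 1) := by
            simp only [HP, m, m', n, n', if_false]
            omega
          rw [hsi, hsj]
          rcases core (i - 29) (j - 29) (by omega) (by omega) with h | h
          · left
            intro i0 i1 _ _
            rw [h i0 i1, hHP]
          · right
            refine ⟨?_, h.2⟩
            intro i0 i1 _ _
            rw [h.1 i0 i1, hHP])
  refine ⟨fun i => sel κ r i i0, fun j => sel κ c j i1, sel_lt (kr i0) (r01 i0) (r12 i0),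
    sel_lt (kc i1) (c01 i1) (c12 i1), ?_, ?_, hh⟩
  · intro i hi; exact sel_valid hκ vr i i0 hi h0
  · intro i hi; exact sel_valid hκ vc i i1 hi h1

end Vale.Agent.P037h
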