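import Vale.Agent.P037h.Defs

open Finset

namespace Vale.Agent.P037h

/-- Parameter of a row. -/
def parR (D : ℕ) (r : Key) : ℕ := if kd r ≤ 2 then sb r / 4 else lev D (ix r)
/-- Parameter of a column. -/
def parC (D : ℕ) (c : Key) : ℕ := if kd c ≤ 2 then sb c / 4 else lev D (ix c) + 1

theorem par_rule {D : ℕ} {r c : Key} (hr : kd r = 1 ∨ kd r = 2 ∨ kd r = 4)
    (hc : kd c = 1 ∨ kd c = 2 ∨ kd c = 4) (h : ent D r c) :
    parC D c = parR D r ∨ parC D c = parR D r + 1 := by
  rcases (by omega : kd r ≤ 2 ∨ kd r = 4) with hr2 | hr4
  · rcases (by omega : kd c ≤ 2 ∨ kd c = 4) with hc2 | hc4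
    · rw [ent_ss (by omega) hr2 (by omega) hc2] at h
      simp only [parR, parC, hr2, hc2, if_true]
      left; rw [h]
    · rw [ent_sm (by omega) hr2 (by omega)] at h
      have hc2 : ¬ kd c ≤ 2 := by omega
      simp only [parR, parC, hr2, hc2, if_true, if_false]
      unfold accC at h
      split_ifs at h <;> omega
  · have hr2 : ¬ kd r ≤ 2 := by omega
    rcases (by omega : kd c ≤ 2 ∨ kd c = 4) with hc2 | hc4
    · rw [ent_ms (by omega) hc2 (by omega)] at h
      simp only [parR, parC, hr2, hc2, if_true, if_false]
      unfold accR at h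
      split_ifs at h <;> omega
    · rw [ent_44 hr4 hc4] at h
      have hc2 : ¬ kd c ≤ 2 := by omega
      simp only [parR, parC, hr2, hc2, if_false]
      unfold tree at h
      omega

theorem noCo {D : ℕ} (R C : ℕ → Key)
    (hR : ∀ i j, i < j → j < 25 → R i < R j) (hC : ∀ i j, i < j → j < 25 → C i < C j)
    (vR : ∀ i, i < 25 → Valid D (R i)) (vC : ∀ i, i < 25 → Valid D (C i))
    (kR : ∀ i, i < 25 → 1 ≤ kd (R i)) (kC : ∀ i, i < 25 → 1 ≤ kd (C i))
    (h : ∀ i j, i < 25 → j < 25 → (ent D (R i) (C j) ↔ i ≠ j)) : False := by
  -- monotonicity of kinds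
  have mR : ∀ i j, i ≤ j → j < 25 → kd (R i) ≤ kd (R j) := by
    intro i j hij hj
    rcases Nat.lt_or_ge i j with h1 | h1
    · have := (key_lt _ _).1 (hR i j h1 hj); omega
    · have : i = j := by omega
      subst this; exact le_rfl
  have mC : ∀ i j, i ≤ j → j < 25 → kd (C i) ≤ kd (C j) := by
    intro i j hij hj
    rcases Nat.lt_or_ge i j with h1 | h1
    · have := (key_lt _ _).1 (hC i j h1 hj); omega
    · have : i = j := by omega
      subst this; exact le_rfl
  -- distinct groups
  have dR : ∀ i j, i < j → j < 25 → kd (R i) = kd (R j) → sb (R i) = sb (R j) →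
      kd (R i) = 4 := by
    intro i j hij hj h1 h2
    by_contra h3
    have e := ent_congr_row (D := D) (c := C i) h1 h2 h3
    rw [h i i (by omega) (by omega), h j i hj (by omega)] at e
    have := e.2 (by omega)
    omega
  have dC : ∀ i j, i < j → j < 25 → kd (C i) = kd (C j) → sb (C i) = sb (C j) →
      kd (C i) = 4 := by
    intro i j hij hj h1 h2
    by_contra h3
    have e := ent_congr_col (D := D) (r := R i) h1 h2 h3
    rw [h i i (by omega) (by omega), h i j (by omega) hj] at e
    have := e.2 (by omega)
    omega
  have sR : ∀ i, i < 25 → kd (R i) = 3 ∨ kd (R i) = 5 ∨ kd (R i) = 6 → sb (R i) = 0 := by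
    intro i hi hk
    have := vR i hi
    unfold Valid at this
    omega
  have sC : ∀ i, i < 25 → kd (C i) = 3 ∨ kd (C i) = 5 ∨ kd (C i) = 6 → sb (C i) = 0 := by
    intro i hi hk
    have := vC i hi
    unfold Valid at this
    omega
  have bR : ∀ i, i < 25 → kd (R i) ≤ 6 := by
    intro i hi
    have := vR i hi
    unfold Valid at this
    omega
  have bC : ∀ i, i < 25 → kd (C i) ≤ 6 := by
    intro i hi
    have := vC i hi
    unfold Valid at this
    omega
  -- consecutive special rows have different kinds
  have cR : ∀ i, i + 1 < 25 → kd (R i) = kd (R (i + 1)) → kd (R i) ≠ 3 ∧ kd (R i) ≠ 5 ∧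
      kd (R i) ≠ 6 := by
    intro i hi hk
    by_contra hh
    have h1 : kd (R i) = 3 ∨ kd (R i) = 5 ∨ kd (R i) = 6 := by omega
    have h2 := sR i (by omega) h1
    have h3 := sR (i + 1) hi (by omega)
    have := dR i (i + 1) (by omega) hi hk (by omega)
    omega
  have cC : ∀ i, i + 1 < 25 → kd (C i) = kd (C (i + 1)) → kd (C i) ≠ 3 ∧ kd (C i) ≠ 5 ∧
      kd (C i) ≠ 6 := by
    intro i hi hk
    by_contra hh
    have h1 : kd (C i) = 3 ∨ kd (C i) = 5 ∨ kd (C i) = 6 := by omega
    have h2 := sC i (by omega) h1
    have h3 := sC (i + 1) hi (by omega)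
    have := dC i (i + 1) (by omega) hi hk (by omega)
    omega
  -- a nonspecial row and column beyond index 16
  have nR : ∃ i, 17 ≤ i ∧ i < 25 ∧ (kd (R i) = 1 ∨ kd (R i) = 2 ∨ kd (R i) = 4) := by
    by_contra hh
    push Not at hh
    have a0 := hh 17 (by omega) (by omega)
    have a1 := hh 18 (by omega) (by omega)
    have a2 := hh 19 (by omega) (by omega)
    have a3 := hh 20 (by omega) (by omega)
    have b0 := cR 17 (by omega)
    have b1 := cR 18 (by omega)
    have b2 := cR 19 (by omega)
    have c0 := mR 17 18 (by omega) (by omega)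
    have c1 := mR 18 19 (by omega) (by omega)
    have c2 := mR 19 20 (by omega) (by omega)
    have d0 := bR 20 (by omega)
    have e0 := kR 17 (by omega)
    norm_num at b0 b1 b2
    omega
  have nC : ∃ i, 17 ≤ i ∧ i < 25 ∧ (kd (C i) = 1 ∨ kd (C i) = 2 ∨ kd (C i) = 4) := by
    by_contra hh
    push Not at hh
    have a0 := hh 17 (by omega) (by omega)
    have a1 := hh 18 (by omega) (by omega)
    have a2 := hh 19 (by omega) (by omega)
    have a3 := hh 20 (by omega) (by omega)
    have b0 := cC 17 (by omega)
    have b1 := cC 18 (by omega)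
    have b2 := cC 19 (by omega)
    have c0 := mC 17 18 (by omega) (by omega)
    have c1 := mC 18 19 (by omega) (by omega)
    have c2 := mC 19 20 (by omega) (by omega)
    have d0 := bC 20 (by omega)
    have e0 := kC 17 (by omega)
    norm_num at b0 b1 b2
    omega
  -- column 16 is not a signature column
  have c16 : 3 ≤ kd (C 16) := by
    by_contra hlt
    obtain ⟨i, hi, hi', hk⟩ := nR
    have key : ∀ j, j ≤ 16 → j + 4 * parR D (R i) ≤ 8 * (kd (C j) - 1) + sb (C j) := by
      intro j
      induction j with
      | zero =>
        intro _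
        have e := par_rule (D := D) hk (c := C 0)
          (by have := mC 0 16 (by omega) (by omega); have := kC 0 (by omega); omega)
          ((h i 0 hi' (by omega)).2 (by omega))
        have : kd (C 0) ≤ 2 := by have := mC 0 16 (by omega) (by omega); omega
        simp only [parC, this, if_true] at e
        omega
      | succ j ih =>
        intro hj
        have ih := ih (by omega)
        have k1 : kd (C (j + 1)) ≤ 2 := by
          have := mC (j + 1) 16 (by omega) (by omega); omega
        have k0 : kd (C j) ≤ 2 := by
          have := mC j 16 (by omega) (by omega); omega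
        have k0' := kC j (by omega)
        have k1' := kC (j + 1) (by omega)
        have e1 := par_rule (D := D) hk (c := C (j + 1)) (by omega)
          ((h i (j + 1) hi' (by omega)).2 (by omega))
        have e0 := par_rule (D := D) hk (c := C j) (by omega)
          ((h i j hi' (by omega)).2 (by omega))
        simp only [parC, k1, if_true] at e1
        simp only [parC, k0, if_true] at e0
        have lt := (key_lt _ _).1 (hC j (j + 1) (by omega) (by omega))
        have dd := dC j (j + 1) (by omega) (by omega)
        omega
    have k16 : kd (C 16) ≤ 2 := by omega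
    have e16 := par_rule (D := D) hk (c := C 16) (by have := kC 16 (by omega); omega)
          ((h i 16 hi' (by omega)).2 (by omega))
    simp only [parC, k16, if_true] at e16
    have := key 16 le_rfl
    omega
  have r16 : 3 ≤ kd (R 16) := by
    by_contra hlt
    obtain ⟨i, hi, hi', hk⟩ := nC
    have key : ∀ j, j ≤ 16 → j + 4 * parC D (C i) ≤ 8 * (kd (R j) - 1) + sb (R j) + 4 := by
      intro j
      induction j with
      | zero =>
        intro _
        have e := par_rule (D := D) (r := R 0) (c := C i)
          (by have := mR 0 16 (by omega) (by omega); have := kR 0 (by omega); omega) hk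
          ((h 0 i (by omega) hi').2 (by omega))
        have : kd (R 0) ≤ 2 := by have := mR 0 16 (by omega) (by omega); omega
        simp only [parR, this, if_true] at e
        omega
      | succ j ih =>
        intro hj
        have ih := ih (by omega)
        have k1 : kd (R (j + 1)) ≤ 2 := by
          have := mR (j + 1) 16 (by omega) (by omega); omega
        have k0 : kd (R j) ≤ 2 := by
          have := mR j 16 (by omega) (by omega); omega
        have k0' := kR j (by omega)
        have k1' := kR (j + 1) (by omega)
        have e1 := par_rule (D := D) (r := R (j + 1)) (c := C i) (by omega) hk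
          ((h (j + 1) i (by omega) hi').2 (by omega))
        have e0 := par_rule (D := D) (r := R j) (c := C i) (by omega) hk
          ((h j i (by omega) hi').2 (by omega))
        simp only [parR, k1, if_true] at e1
        simp only [parR, k0, if_true] at e0
        have lt := (key_lt _ _).1 (hR j (j + 1) (by omega) (by omega))
        have dd := dR j (j + 1) (by omega) (by omega)
        omega
    have k16 : kd (R 16) ≤ 2 := by omega
    have e16 := par_rule (D := D) (r := R 16) (c := C i) (by have := kR 16 (by omega); omega) hk
          ((h 16 i (by omega) hi').2 (by omega))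
    simp only [parR, k16, if_true] at e16
    have := key 16 le_rfl
    omega
  -- indices 18 to 22 are main
  have mainR : ∀ i, 18 ≤ i → i ≤ 22 → kd (R i) = 4 := by
    intro i h1 h2
    have a := mR 16 17 (by omega) (by omega)
    have b := mR 17 18 (by omega) (by omega)
    have c := mR 18 i h1 (by omega)
    have d := mR i 22 h2 (by omega)
    have e := mR 22 23 (by omega) (by omega)
    have f := mR 23 24 (by omega) (by omega)
    have g := bR 24 (by omega)
    have p := cR 17 (by omega)
    have q := cR 22 (by omega)
    have r := cR 23 (by omega)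
    norm_num at p q r
    omega
  have mainC : ∀ i, 18 ≤ i → i ≤ 22 → kd (C i) = 4 := by
    intro i h1 h2
    have a := mC 16 17 (by omega) (by omega)
    have b := mC 17 18 (by omega) (by omega)
    have c := mC 18 i h1 (by omega)
    have d := mC i 22 h2 (by omega)
    have e := mC 22 23 (by omega) (by omega)
    have f := mC 23 24 (by omega) (by omega)
    have g := bC 24 (by omega)
    have p := cC 17 (by omega)
    have q := cC 22 (by omega)
    have r := cC 23 (by omega)
    norm_num at p q r
    omega
  -- main part
  have see : ∀ i j, 18 ≤ i → i ≤ 22 → 18 ≤ j → j ≤ 22 → i ≠ j →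
      tree D (sb (R i)) (ix (R i)) (sb (C j)) (ix (C j)) := by
    intro i j h1 h2 h3 h4 hij
    exact (ent_44 (mainR i h1 h2) (mainC j h3 h4)).1 ((h i j (by omega) (by omega)).2 hij)
  have nsee : ∀ i, 18 ≤ i → i ≤ 22 →
      ¬ tree D (sb (R i)) (ix (R i)) (sb (C i)) (ix (C i)) := by
    intro i h1 h2 hh
    exact ((h i i (by omega) (by omega)).1
      ((ent_44 (mainR i h1 h2) (mainC i h1 h2)).2 hh)) rfl
  have win : ∀ i, 19 ≤ i → i ≤ 21 → lev D (ix (C i)) + 1 ≠ lev D (ix (R i)) ∧
      lev D (ix (C i)) ≠ lev D (ix (R i)) := by
    intro i h1 h2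
    by_contra hh
    apply nsee i (by omega) (by omega)
    have e1 := see i 18 (by omega) (by omega) (by omega) (by omega) (by omega)
    have e2 := see i 22 (by omega) (by omega) (by omega) (by omega) (by omega)
    have e3 := see 18 i (by omega) (by omega) (by omega) (by omega) (by omega)
    unfold tree at e1 e2 e3 ⊢
    refine ⟨e3.1, by omega, ?_⟩
    have l1 := (key_lt _ _).1 (hC 18 i (by omega) (by omega))
    have l2 := (key_lt _ _).1 (hC i 22 (by omega) (by omega))
    have m1 := mainC 18 (by omega) (by omega)
    have m2 := mainC 22 (by omega) (by omega)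
    have m3 := mainC i (by omega) (by omega)
    have l1' : sb (C 18) ≤ sb (C i) := by omega
    have l2' : sb (C i) ≤ sb (C 22) := by omega
    have q1 := Nat.div_le_div_right (c := 2 ^ (D - lev D (ix (R i)))) l1'
    have q2 := Nat.div_le_div_right (c := 2 ^ (D - lev D (ix (R i)))) l2'
    omega
  have w1 := win 19 (by omega) (by omega)
  have w2 := win 20 (by omega) (by omega)
  have w3 := win 21 (by omega) (by omega)
  have s1 := (see 19 18 (by omega) (by omega) (by omega) (by omega) (by omega)).2.1
  have s2 := (see 20 18 (by omega) (by omega) (by omega) (by omega) (by omega)).2.1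
  have s3 := (see 21 18 (by omega) (by omega) (by omega) (by omega) (by omega)).2.1
  have t1 := (see 19 20 (by omega) (by omega) (by omega) (by omega) (by omega)).2.1
  have t2 := (see 19 21 (by omega) (by omega) (by omega) (by omega) (by omega)).2.1
  have t3 := (see 20 19 (by omega) (by omega) (by omega) (by omega) (by omega)).2.1
  have t4 := (see 20 21 (by omega) (by omega) (by omega) (by omega) (by omega)).2.1
  have t5 := (see 21 19 (by omega) (by omega) (by omega) (by omega) (by omega)).2.1
  have t6 := (see 21 20 (by omega) (by omega) (by omega) (by omega) (by omega)).2.1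
  omega

end Vale.Agent.P037h
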