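import Vale.Agent.P037h.Copies
import Vale.Agent.P037h.Chain

open Finset

namespace Vale.Agent.P037h

/-- The forbidden pattern as a binary matrix. -/
def HB (i j : Fin 32) : Bool := decide (HP i j)

theorem card_S_le (D : ℕ) : (S D).card ≤ 2 ^ D * (10 * D + 42) := by
  classical
  have h := card_le_card_of_injOn (s := S D) (t := range (10 * D + 42) ×ˢ range (2 ^ D))
    (fun x => if kd x = 0 then (sb x, ix x)
      else if kd x = 1 then (27 + sb x, ix x)
      else if kd x = 2 then (27 + (4 * D + 5) + sb x, ix x)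
      else if kd x = 3 then (27 + 2 * (4 * D + 5), ix x)
      else if kd x = 5 then (27 + 2 * (4 * D + 5) + 1, ix x)
      else if kd x = 6 then (27 + 2 * (4 * D + 5) + 2, ix x)
      else (27 + 2 * (4 * D + 5) + 3 + ix x, sb x)) ?_ ?_
  · rw [card_product, card_range, card_range, mul_comm] at h
    exact h
  · intro x hx
    have hx' := mem_S.1 hx
    unfold Valid at hx'
    simp only [coe_product, coe_range, Set.mem_prod, Set.mem_Iio]
    split_ifs <;> simp only <;> omega
  · intro x hx y hy hxy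
    have hx' := mem_S.1 hx
    have hy' := mem_S.1 hy
    unfold Valid at hx' hy'
    simp only at hxy
    have key : kd x = kd y ∧ sb x = sb y ∧ ix x = ix y := by
      split_ifs at hxy <;> simp only [Prod.mk.injEq] at hxy <;> omega
    exact key_ext key.1 key.2.1 key.2.2

theorem card_S_ge (D : ℕ) : 2 ^ D * (2 * D + 2) ≤ (S D).card := by
  classical
  have h := card_le_card_of_injOn (s := range (2 ^ D) ×ˢ range (2 * D + 2)) (t := S D)
    (fun p => mk 4 p.1 p.2) ?_ ?_
  · rw [card_product, card_range, card_range] at h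
    exact h
  · rintro ⟨w, t⟩ hp
    simp only [coe_product, coe_range, Set.mem_prod, Set.mem_Iio] at hp
    apply mem_S.2
    unfold Valid
    simp
    omega
  · rintro ⟨w, t⟩ _ ⟨w', t'⟩ _ hh
    simp only at hh
    have h1 := congrArg sb hh
    have h2 := congrArg ix hh
    simp at h1 h2
    rw [h1, h2]

/-- The order isomorphism listing the valid keys. -/
noncomputable def eS (D : ℕ) : Fin (S D).card ≃o S D := (S D).orderIsoOfFin rfl

open Classical in
/-- The host matrix. -/
noncomputable def AM (D : ℕ) (i j : Fin (S D).card) : Bool := decide (ent D (eS D i) (eS D j))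

theorem card_copies (D : ℕ) (hD : 1 ≤ D) :
    Nat.card {p : (Fin 32 ↪o Fin (S D).card) × (Fin 32 ↪o Fin (S D).card) //
      ∀ i j, AM D (p.1 i) (p.2 j) = HB i j} * 2 ^ D ≤ (S D).card ^ 64 := by
  classical
  set n := (S D).card with hn
  have cell : ∀ p : (Fin 32 ↪o Fin n) × (Fin 32 ↪o Fin n), (∀ i j, AM D (p.1 i) (p.2 j) = HB i j) →
      kd (eS D (p.2 29)) = 4 ∧ kd (eS D (p.2 31)) = 4 ∧
        sb (eS D (p.2 29)) = sb (eS D (p.2 31)) := by
    intro p hp
    have := copy_cell hD (fun i => if h : i < 32 then (eS D (p.1 ⟨i, h⟩) : Key) else mk 0 0 0)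
      (fun i => if h : i < 32 then (eS D (p.2 ⟨i, h⟩) : Key) else mk 0 0 0) ?_ ?_ ?_ ?_ ?_
    · exact this
    · intro i j hij hj
      simp only [hj, (by omega : i < 32), dite_true]
      have : p.1 ⟨i, by omega⟩ < p.1 ⟨j, hj⟩ := p.1.strictMono (by simpa using hij)
      exact (eS D).strictMono this
    · intro i j hij hj
      simp only [hj, (by omega : i < 32), dite_true]
      have : p.2 ⟨i, by omega⟩ < p.2 ⟨j, hj⟩ := p.2.strictMono (by simpa using hij)
      exact (eS D).strictMono this
    · intro i hi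
      simp only [hi, dite_true]
      exact mem_S.1 (eS D (p.1 ⟨i, hi⟩)).2
    · intro i hi
      simp only [hi, dite_true]
      exact mem_S.1 (eS D (p.2 ⟨i, hi⟩)).2
    · intro i j hi hj
      simp only [hi, hj, dite_true]
      have := hp ⟨i, hi⟩ ⟨j, hj⟩
      unfold AM HB at this
      simpa using this
  have hinj : Nat.card {p : (Fin 32 ↪o Fin n) × (Fin 32 ↪o Fin n) //
      ∀ i j, AM D (p.1 i) (p.2 j) = HB i j} ≤
      Nat.card ((Fin 32 → Fin n) × (Fin 31 → Fin n) × Fin (2 * D + 2)) := by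
    have hix : ∀ p : (Fin 32 ↪o Fin n) × (Fin 32 ↪o Fin n),
        (∀ i j, AM D (p.1 i) (p.2 j) = HB i j) → ix (eS D (p.2 31)) < 2 * D + 2 := by
      intro p hp
      have h1 := (cell p hp).2.1
      have h2 := mem_S.1 (eS D (p.2 31)).2
      unfold Valid at h2
      omega
    apply Nat.card_le_card_of_injective
      (fun p => (fun i => p.1.1 i, fun i => p.1.2 i.castSucc, ⟨ix (eS D (p.1.2 31)), hix p.1 p.2⟩))
    rintro ⟨⟨f, g⟩, hp⟩ ⟨⟨f', g'⟩, hp'⟩ hh
    simp only [Prod.mk.injEq, Fin.mk.injEq] at hh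
    obtain ⟨h1, h2, h3⟩ := hh
    have hf : f = f' := by
      ext i
      rw [congrFun h1 i]
    have h29 : g 29 = g' 29 := congrFun h2 29
    have c1 := cell (f, g) hp
    have c2 := cell (f', g') hp'
    simp only at c1 c2
    have h31 : g 31 = g' 31 := by
      have : (eS D (g 31) : Key) = eS D (g' 31) := by
        apply key_ext
        · rw [c1.2.1, c2.2.1]
        · rw [← c1.2.2, ← c2.2.2, h29]
        · exact h3
      exact (eS D).injective (Subtype.ext this)
    have hg : g = g' := by
      ext i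
      rcases Fin.eq_castSucc_or_eq_last i with ⟨j, rfl⟩ | rfl
      · rw [congrFun h2 j]
      · have : Fin.last 31 = 31 := rfl
        rw [this, h31]
    subst hf
    subst hg
    rfl
  have h64 : Nat.card ((Fin 32 → Fin n) × (Fin 31 → Fin n) × Fin (2 * D + 2)) =
      n ^ 63 * (2 * D + 2) := by
    simp only [Nat.card_eq_fintype_card, Fintype.card_prod, Fintype.card_fun, Fintype.card_fin]
    ring
  rw [h64] at hinj
  calc _ ≤ n ^ 63 * (2 * D + 2) * 2 ^ D := Nat.mul_le_mul_right _ hinj
    _ = n ^ 63 * (2 ^ D * (2 * D + 2)) := by ring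
    _ ≤ n ^ 63 * n := Nat.mul_le_mul_left _ (card_S_ge D)
    _ = n ^ 64 := by ring

theorem far_AM (D : ℕ) (hD : 1 ≤ D) (B : Fin (S D).card → Fin (S D).card → Bool)
    (hB : 2048 * Nat.card {q : Fin (S D).card × Fin (S D).card // AM D q.1 q.2 ≠ B q.1 q.2} <
      2 ^ D * 2 ^ D) :
    ∃ p : (Fin 32 ↪o Fin (S D).card) × (Fin 32 ↪o Fin (S D).card),
      ∀ i j, B (p.1 i) (p.2 j) = HB i j := by
  classical
  let B' : Key → Key → Prop := fun x y => ∃ i j, (eS D i : Key) = x ∧ (eS D j : Key) = y ∧ B i j = true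
  have hB' : ∀ i j, B' (eS D i) (eS D j) ↔ B i j = true := by
    intro i j
    constructor
    · rintro ⟨i', j', h1, h2, h3⟩
      have h1' : i' = i := (eS D).injective (Subtype.ext h1)
      have h2' : j' = j := (eS D).injective (Subtype.ext h2)
      rw [← h1', ← h2']
      exact h3
    · intro h
      exact ⟨i, j, rfl, rfl, h⟩
  have hcard : (Er D B').card ≤
      Nat.card {q : Fin (S D).card × Fin (S D).card // AM D q.1 q.2 ≠ B q.1 q.2} := by
    rw [Nat.card_eq_fintype_card, Fintype.card_subtype]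
    have : Er D B' ⊆ (univ.filter (fun q : Fin (S D).card × Fin (S D).card =>
        AM D q.1 q.2 ≠ B q.1 q.2)).image (fun q => ((eS D q.1 : Key), (eS D q.2 : Key))) := by
      rintro ⟨x, y⟩ hxy
      obtain ⟨⟨vx, vy⟩, hne⟩ := mem_Er.1 hxy
      rw [mem_image]
      refine ⟨((eS D).symm ⟨x, mem_S.2 vx⟩, (eS D).symm ⟨y, mem_S.2 vy⟩), ?_, by simp⟩
      rw [mem_filter]
      refine ⟨mem_univ _, ?_⟩
      have e1 : (eS D ((eS D).symm ⟨x, mem_S.2 vx⟩) : Key) = x := by simp
      have e2 : (eS D ((eS D).symm ⟨y, mem_S.2 vy⟩) : Key) = y := by simp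
      have e3 := hB' ((eS D).symm ⟨x, mem_S.2 vx⟩) ((eS D).symm ⟨y, mem_S.2 vy⟩)
      rw [e1, e2] at e3
      simp only [AM, e1, e2]
      intro hcon
      apply hne
      rw [e3, ← hcon]
      simp
    exact (card_le_card this).trans card_image_le
  obtain ⟨f, g, hf, hg, vf, vg, hfg⟩ := far hD (B := B') (by omega)
  let F : Fin 32 ↪o Fin (S D).card := OrderEmbedding.ofStrictMono
    (fun i => (eS D).symm ⟨f i, mem_S.2 (vf i i.2)⟩) (by
      intro i j hij
      apply (eS D).symm.strictMono
      exact hf i j hij j.2)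
  let G : Fin 32 ↪o Fin (S D).card := OrderEmbedding.ofStrictMono
    (fun i => (eS D).symm ⟨g i, mem_S.2 (vg i i.2)⟩) (by
      intro i j hij
      apply (eS D).symm.strictMono
      exact hg i j hij j.2)
  refine ⟨(F, G), ?_⟩
  intro i j
  have h1 := hfg i j i.2 j.2
  have h2 := hB' (F i) (G j)
  have e1 : (eS D (F i) : Key) = f i := by
    have : F i = (eS D).symm ⟨f i, mem_S.2 (vf i i.2)⟩ := rfl
    rw [this, OrderIso.apply_symm_apply]
  have e2 : (eS D (G j) : Key) = g j := by
    have : G j = (eS D).symm ⟨g j, mem_S.2 (vg j j.2)⟩ := rfl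
    rw [this, OrderIso.apply_symm_apply]
  rw [e1, e2, h1] at h2
  unfold HB
  by_cases h : HP i j
  · simp [h, h2.1 h]
  · have : B (F i) (G j) = false := by
      by_contra hc
      exact h (h2.2 (by simpa using hc))
    simp [h, this]

end Vale.Agent.P037h
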